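import Vale.Agent.P154.D4.K1.Data
import Vale.Agent.P154.ApxLemma

set_option maxRecDepth 100000

namespace Vale.Agent.P154.D4.K1

open PolyR Cert InT OutT

/-- The quotient polynomial for `j = 1`. -/
noncomputable def S1 (u : ℝ) : ℝ :=
  (-1 / 16777216 : ℝ) * u ^ 0 + (261 / 8388608 : ℝ) * u ^ 1 + (125 / 4194304 : ℝ) * u ^ 2 + (-30285 / 16777216 : ℝ) * u ^ 3 + (-3347 / 16777216 : ℝ) * u ^ 4 + (61523 / 2097152 : ℝ) * u ^ 5 + (-298583 / 16777216 : ℝ) * u ^ 6 + (-1509929 / 8388608 : ℝ) * u ^ 7 + (951895 / 4194304 : ℝ) * u ^ 8 + (5370937 / 16777216 : ℝ) * u ^ 9 + (-2967213 / 4194304 : ℝ) * u ^ 10 + (5601013 / 16777216 : ℝ) * u ^ 11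

/-- Certificate polynomial. -/
def lpu1 : List ITm := [⟨(-14511108398437500000000000000000),0,0⟩,⟨200877227783203125000000000000000,1,0⟩,⟨169813476562500000000000000000000,2,0⟩,⟨(-8578192297675781250000000000000000),3,0⟩,⟨(-790660354081148437500000000000000),4,0⟩,⟨96967855794653526375000000000000000,5,0⟩,⟨(-49060438862573789972718750000000000),6,0⟩,⟨(-413827096736028964943377125000000000),7,0⟩,⟨435158518715052523902386347500000000,8,0⟩,⟨511934692600701222302347727222250000,9,0⟩,⟨(-943494273256127139772297484045274000),10,0⟩,⟨371332691435045482626083607482515029,11,0⟩]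

/-- Certificate tree. -/
def tpu1 : OutT := (A (A (A (A (O l) (A (A (O l) (O l)) (A (O l) (O l)))) (A (A (A (O l) (O l)) (O l)) (A (O l) (O l)))) (A (A (A (O l) (O l)) (A (O l) (A (O l) (O l)))) (A (A (A (O l) (O l)) (A (A (O l) (O l)) (A (O l) (O l)))) (A (A (A (O l) (O l)) (A (O l) (A (O l) (O l)))) (A (A (A (O l) (O l)) (A (O l) (O l))) (A (A (O l) (O l)) (A (O l) (A (O l) (O l))))))))) (A (A (A (A (A (A (A (A (O l) (O l)) (A (O l) (O l))) (A (A (O l) (O l)) (A (O l) (O l)))) (A (A (A (O l) (A (O l) (O l))) (A (A (O l) (O l)) (A (O l) (O l)))) (A (A (A (O l) (O l)) (A (O l) (O l))) (A (A (O l) (O l)) (A (O l) (O l)))))) (A (A (A (A (A (O l) (O l)) (A (O l) (O l))) (A (A (O l) (O l)) (A (O l) (O l)))) (A (A (A (O l) (O l)) (A (O l) (O l))) (A (A (O l) (O l)) (A (O l) (O l))))) (A (A (A (A (O l) (O l)) (A (O l) (O l))) (A (A (O l) (O l)) (A (O l) (O l)))) (A (A (O l) (O l)) (A (O l) (O l)))))) (A (A (A (A (A (O l) (O l)) (A (O l) (O l))) (A (A (O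 l) (O l)) (A (O l) (O l)))) (A (A (A (O l) (O l)) (A (O l) (O l))) (A (A (O l) (O l)) (A (O l) (O l))))) (A (A (A (A (O l) (O l)) (A (O l) (O l))) (A (A (O l) (O l)) (O l))) (A (A (O l) (O l)) (A (O l) (O l)))))) (A (A (A (A (A (O l) (O l)) (A (O l) (O l))) (A (A (O l) (O l)) (A (O l) (O l)))) (A (A (A (O l) (O l)) (A (O l) (O l))) (A (A (O l) (O l)) (A (O l) (O l))))) (A (A (A (A (O l) (O l)) (A (O l) (O l))) (A (A (O l) (O l)) (A (O l) (O l)))) (A (A (A (O l) (O l)) (A (O l) (O l))) (A (A (A (O l) (O l)) (A (O l) (O l))) (A (A (O l) (O l)) (A (O l) (O l)))))))) (A (A (A (A (A (A (A (O l) (O l)) (A (O l) (O l))) (A (A (O l) (O l)) (A (O l) (O l)))) (A (A (A (O l) (O l)) (A (O l) (O l))) (A (A (O l) (O l)) (A (O l) (O l))))) (A (A (A (A (O l) (O l)) (A (O l) (O l))) (A (A (O l) (O l)) (A (O l) (O l)))) (A (A (A (O l) (O l)) (A (O l) (O l))) (A (A (O l) (A (O l) (O l))) (A (A (O l) (O l)) (A (O l) (O l))))))) (A (A (A (A (A (A (O l) (O l)) (A (O l)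 (O l))) (A (A (O l) (O l)) (A (O l) (O l)))) (A (A (A (O l) (O l)) (A (O l) (O l))) (A (A (O l) (O l)) (A (O l) (O l))))) (A (A (A (A (O l) (O l)) (A (O l) (O l))) (A (A (O l) (O l)) (A (O l) (O l)))) (A (A (A (O l) (O l)) (A (O l) (O l))) (A (A (A (O l) (O l)) (A (O l) (O l))) (A (A (O l) (O l)) (A (O l) (O l))))))) (A (A (A (A (A (A (O l) (O l)) (A (O l) (O l))) (A (A (O l) (O l)) (A (O l) (O l)))) (A (A (A (O l) (O l)) (A (O l) (O l))) (A (A (O l) (O l)) (A (O l) (O l))))) (A (A (A (A (O l) (O l)) (A (O l) (O l))) (A (A (O l) (O l)) (A (O l) (O l)))) (A (A (A (O l) (O l)) (A (O l) (O l))) (A (A (O l) (A (O l) (O l))) (A (A (O l) (O l)) (A (O l) (O l))))))) (A (A (A (A (A (A (O l) (O l)) (A (O l) (O l))) (A (A (O l) (O l)) (A (O l) (O l)))) (A (A (A (O l) (O l)) (A (O l) (O l))) (A (A (O l) (O l)) (A (O l) (O l))))) (A (A (A (A (O l) (O l)) (A (O l) (O l))) (A (A (O l) (O l)) (A (O l) (O l)))) (A (A (A (O l) (O l)) (A (O l) (O l))) (A (A (O l) (O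 l)) (A (O l) (O l)))))) (A (A (A (A (A (O l) (O l)) (A (O l) (O l))) (A (A (O l) (O l)) (A (O l) (O l)))) (A (A (A (O l) (O l)) (A (O l) (O l))) (A (A (O l) (O l)) (A (O l) (O l))))) (A (A (A (A (O l) (O l)) (A (O l) (O l))) (A (A (O l) (O l)) (A (O l) (O l)))) (A (A (A (O l) (O l)) (A (O l) (O l))) (A (A (O l) (O l)) (A (O l) (O l)))))))))) (A (A (A (A (A (A (A (A (A (O l) (O l)) (A (O l) (O l))) (A (A (O l) (O l)) (A (O l) (O l)))) (A (A (A (O l) (O l)) (A (O l) (O l))) (A (A (O l) (O l)) (A (O l) (O l))))) (A (A (A (A (O l) (O l)) (A (O l) (O l))) (A (A (O l) (O l)) (A (O l) (O l)))) (A (A (A (O l) (O l)) (A (O l) (O l))) (A (A (O l) (O l)) (A (O l) (O l)))))) (A (A (A (A (A (O l) (O l)) (A (O l) (O l))) (A (A (O l) (O l)) (A (O l) (O l)))) (A (A (A (O l) (O l)) (A (O l) (O l))) (A (A (O l) (O l)) (A (O l) (O l))))) (A (A (A (O l) (O l)) (A (O l) (O l))) (A (A (O l) (O l)) (A (O l) (O l)))))) (A (A (A (A (A (O l) (O l)) (A (O l) (O l))) (A (A (O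 l) (O l)) (A (O l) (O l)))) (A (A (A (O l) (O l)) (A (O l) (O l))) (A (A (O l) (O l)) (A (O l) (O l))))) (A (A (A (A (O l) (O l)) (A (O l) (O l))) (A (A (O l) (O l)) (A (O l) (O l)))) (A (A (A (O l) (O l)) (A (O l) (O l))) (A (A (O l) (O l)) (A (O l) (O l))))))) (A (A (A (A (A (A (O l) (O l)) (A (O l) (O l))) (A (A (O l) (O l)) (A (O l) (O l)))) (A (A (O l) (O l)) (A (O l) (O l)))) (A (A (A (O l) (O l)) (A (O l) (O l))) (A (A (O l) (O l)) (A (O l) (O l))))) (A (A (A (A (O l) (O l)) (A (O l) (O l))) (A (A (O l) (O l)) (A (O l) (O l)))) (A (A (A (O l) (O l)) (A (O l) (O l))) (A (A (O l) (O l)) (A (O l) (O l))))))) (A (A (A (A (A (A (O l) (O l)) (A (O l) (O l))) (A (A (O l) (O l)) (A (O l) (O l)))) (A (A (A (O l) (O l)) (A (O l) (O l))) (A (A (O l) (O l)) (A (O l) (O l))))) (A (A (A (A (O l) (O l)) (A (O l) (O l))) (A (A (O l) (O l)) (A (O l) (O l)))) (A (A (A (O l) (O l)) (A (O l) (O l))) (A (A (O l) (O l)) (A (O l) (O l)))))) (A (A (A (A (A (O l) (O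 l)) (A (O l) (O l))) (A (A (O l) (O l)) (A (O l) (O l)))) (A (A (A (O l) (O l)) (A (O l) (O l))) (A (A (O l) (O l)) (A (O l) (O l))))) (A (A (A (A (O l) (O l)) (A (O l) (O l))) (A (A (O l) (O l)) (A (O l) (O l)))) (A (A (A (A (O l) (O l)) (A (O l) (O l))) (A (A (O l) (O l)) (A (O l) (O l)))) (A (A (A (O l) (O l)) (A (O l) (O l))) (A (A (A (O l) (O l)) (A (O l) (O l))) (A (A (O l) (O l)) (A (O l) (A (O l) (O l))))))))))))))

theorem hpu1 (x : ℝ) (h0 : 0 ≤ x) (h1 : x ≤ 1) : evalIL lpu1 x 0 ≤ 0 :=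
  uni_le 11 65536 lpu1 (by norm_num) (by norm_num) (by decide +kernel)
    (chkOut_sound (uniPb 11 65536 lpu1) tpu1 0 32768 0 32768 (by decide +kernel)) x h0 h1

/-- Certificate polynomial. -/
def lpl1 : List ITm := [⟨(-13534545898437500000000000000000),0,0⟩,⟨(-224267303466796875000000000000000),1,0⟩,⟨(-169813476562500000000000000000000),2,0⟩,⟨8578192297675781250000000000000000,3,0⟩,⟨790660354081148437500000000000000,4,0⟩,⟨(-96967855794653526375000000000000000),5,0⟩,⟨49060438862573789972718750000000000,6,0⟩,⟨413827096736028964943377125000000000,7,0⟩,⟨(-435158518715052523902386347500000000),8,0⟩,⟨(-511934692600701222302347727222250000),9,0⟩,⟨943494273256127139772297484045274000,10,0⟩,⟨(-371332691435045482626083607482515029),11,0⟩]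

/-- Certificate tree. -/
def tpl1 : OutT := (A (A (A (O l) (A (O l) (A (O l) (O l)))) (A (A (A (A (O l) (A (O l) (O l))) (A (A (O l) (O l)) (A (A (O l) (O l)) (A (O l) (O l))))) (A (A (A (A (O l) (A (O l) (O l))) (A (A (O l) (O l)) (A (O l) (O l)))) (A (A (O l) (O l)) (A (O l) (O l)))) (A (A (A (O l) (O l)) (A (O l) (O l))) (A (O l) (O l))))) (A (A (A (A (O l) (O l)) (A (O l) (O l))) (A (A (O l) (O l)) (A (O l) (O l)))) (A (A (A (O l) (O l)) (A (O l) (O l))) (A (A (O l) (O l)) (A (O l) (O l))))))) (A (A (A (A (A (A (O l) (O l)) (A (O l) (O l))) (A (A (O l) (O l)) (A (O l) (O l)))) (A (A (A (O l) (O l)) (A (A (O l) (O l)) (A (O l) (O l)))) (A (A (A (O l) (O l)) (A (O l) (O l))) (A (A (O l) (O l)) (A (O l) (O l)))))) (A (A (A (A (A (O l) (O l)) (A (O l) (O l))) (A (A (A (O l) (O l)) (A (O l) (O l))) (A (A (O l) (O l)) (A (O l) (O l))))) (A (A (A (A (O l) (O l)) (A (O l) (O l))) (A (A (O l) (O l)) (A (O l) (O l)))) (A (A (A (O l) (O l)) (A (O l) (A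 (O l) (O l)))) (A (A (A (O l) (O l)) (A (O l) (O l))) (A (A (O l) (O l)) (A (O l) (O l))))))) (A (A (A (A (A (A (O l) (O l)) (A (O l) (O l))) (A (A (O l) (O l)) (A (O l) (O l)))) (A (A (A (O l) (O l)) (A (O l) (O l))) (A (A (O l) (A (O l) (O l))) (A (A (O l) (O l)) (A (O l) (O l)))))) (A (A (A (A (A (O l) (O l)) (A (O l) (O l))) (A (A (O l) (O l)) (A (O l) (O l)))) (A (A (A (O l) (O l)) (A (O l) (O l))) (A (A (O l) (O l)) (A (O l) (O l))))) (A (A (A (A (O l) (O l)) (A (O l) (O l))) (A (A (O l) (O l)) (A (O l) (O l)))) (A (A (A (O l) (O l)) (A (A (O l) (O l)) (A (O l) (O l)))) (A (A (A (O l) (O l)) (A (O l) (O l))) (A (A (O l) (O l)) (A (O l) (O l)))))))) (A (A (A (A (A (A (A (O l) (O l)) (A (O l) (O l))) (A (A (O l) (O l)) (A (O l) (O l)))) (A (A (A (O l) (O l)) (A (O l) (O l))) (A (A (O l) (O l)) (A (O l) (O l))))) (A (A (A (A (O l) (O l)) (A (O l) (O l))) (A (A (O l) (O l)) (A (O l) (O l)))) (A (A (A (O l) (O l)) (A (O l) (O l))) (A (A (O l) (O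 l)) (A (O l) (O l)))))) (A (A (A (A (A (O l) (O l)) (A (O l) (O l))) (A (A (O l) (O l)) (A (O l) (O l)))) (A (A (A (O l) (O l)) (A (O l) (O l))) (A (A (O l) (O l)) (O l)))) (A (A (A (O l) (O l)) (A (O l) (O l))) (A (A (O l) (O l)) (A (O l) (O l)))))) (A (A (A (A (A (O l) (O l)) (A (O l) (O l))) (A (A (O l) (O l)) (A (O l) (O l)))) (A (A (A (O l) (O l)) (A (O l) (O l))) (A (A (O l) (O l)) (A (O l) (O l))))) (A (A (A (A (O l) (O l)) (A (O l) (O l))) (A (A (O l) (O l)) (A (O l) (O l)))) (A (A (A (O l) (O l)) (A (O l) (O l))) (A (A (O l) (O l)) (O l))))))))) (A (A (A (A (A (A (A (A (O l) (O l)) (A (O l) (O l))) (A (A (O l) (O l)) (A (O l) (O l)))) (A (A (A (O l) (O l)) (A (O l) (O l))) (A (A (O l) (O l)) (A (O l) (O l))))) (A (A (A (A (O l) (O l)) (A (O l) (O l))) (A (A (O l) (O l)) (A (O l) (O l)))) (A (A (A (O l) (O l)) (A (O l) (O l))) (A (A (O l) (O l)) (A (O l) (O l)))))) (A (A (A (A (A (O l) (O l)) (A (O l) (O l))) (A (A (O l) (O l)) (A (O l) (O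 l)))) (A (A (A (O l) (O l)) (A (O l) (O l))) (A (A (O l) (O l)) (O l)))) (A (A (A (O l) (O l)) (A (O l) (O l))) (A (A (O l) (O l)) (A (O l) (O l)))))) (A (A (A (A (A (O l) (O l)) (A (O l) (O l))) (A (A (O l) (O l)) (A (O l) (O l)))) (A (A (A (O l) (O l)) (A (O l) (O l))) (A (A (O l) (O l)) (A (O l) (O l))))) (A (A (A (A (O l) (O l)) (A (O l) (O l))) (A (A (O l) (O l)) (A (O l) (O l)))) (A (A (A (O l) (O l)) (A (O l) (O l))) (A (A (O l) (O l)) (A (O l) (O l))))))) (A (A (A (A (A (A (O l) (O l)) (A (O l) (O l))) (A (A (O l) (O l)) (A (O l) (O l)))) (A (A (A (O l) (O l)) (A (A (O l) (O l)) (A (O l) (O l)))) (A (A (A (O l) (O l)) (A (O l) (O l))) (A (A (O l) (O l)) (A (O l) (O l)))))) (A (A (A (A (A (O l) (O l)) (A (O l) (O l))) (A (A (O l) (O l)) (A (O l) (O l)))) (A (A (A (O l) (O l)) (A (O l) (O l))) (A (A (O l) (O l)) (A (O l) (O l))))) (A (A (A (A (O l) (O l)) (A (O l) (O l))) (A (A (O l) (O l)) (A (O l) (O l)))) (A (A (A (O l) (O l)) (A (O l) (O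 l))) (A (A (O l) (O l)) (A (O l) (O l))))))) (A (A (A (A (A (A (A (O l) (O l)) (A (O l) (O l))) (A (A (O l) (O l)) (A (O l) (O l)))) (A (A (A (O l) (O l)) (A (O l) (O l))) (A (A (O l) (O l)) (A (O l) (O l))))) (A (A (A (A (O l) (O l)) (A (O l) (O l))) (A (A (O l) (O l)) (A (O l) (O l)))) (A (A (A (O l) (O l)) (A (O l) (O l))) (A (A (O l) (O l)) (A (O l) (O l)))))) (A (A (A (A (A (O l) (O l)) (A (A (O l) (O l)) (A (O l) (O l)))) (A (A (A (O l) (O l)) (A (O l) (O l))) (A (A (O l) (O l)) (A (O l) (O l))))) (A (A (A (A (O l) (O l)) (A (O l) (O l))) (A (A (O l) (O l)) (A (O l) (O l)))) (A (A (A (O l) (O l)) (A (O l) (O l))) (A (A (O l) (O l)) (A (O l) (O l)))))) (A (A (A (A (A (O l) (O l)) (A (O l) (O l))) (A (A (O l) (O l)) (A (A (O l) (O l)) (A (O l) (O l))))) (A (A (A (A (O l) (O l)) (A (O l) (O l))) (A (A (O l) (O l)) (A (O l) (O l)))) (A (A (A (O l) (O l)) (A (O l) (O l))) (A (A (O l) (O l)) (A (O l) (O l)))))) (A (A (A (A (A (O l) (O l)) (A (O l)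 (O l))) (A (A (O l) (O l)) (A (O l) (O l)))) (A (A (A (O l) (O l)) (A (O l) (O l))) (A (A (O l) (O l)) (A (O l) (O l))))) (A (A (A (A (O l) (O l)) (A (O l) (O l))) (A (A (O l) (O l)) (A (O l) (O l)))) (A (A (A (O l) (O l)) (A (O l) (O l))) (A (A (O l) (O l)) (A (O l) (O l))))))))) (A (A (A (A (A (A (A (A (O l) (O l)) (A (O l) (O l))) (A (A (O l) (O l)) (A (O l) (O l)))) (A (A (A (O l) (O l)) (A (O l) (O l))) (A (A (O l) (O l)) (A (O l) (O l))))) (A (A (A (A (O l) (O l)) (A (O l) (O l))) (A (A (O l) (O l)) (A (O l) (O l)))) (A (A (A (O l) (O l)) (O l)) (A (O l) (O l))))) (A (A (A (A (O l) (O l)) (A (O l) (O l))) (A (A (O l) (O l)) (A (O l) (O l)))) (A (A (A (O l) (O l)) (A (O l) (O l))) (A (A (O l) (O l)) (A (O l) (O l)))))) (A (A (A (A (A (O l) (O l)) (A (O l) (O l))) (A (A (O l) (O l)) (A (O l) (O l)))) (A (A (A (O l) (O l)) (O l)) (A (O l) (O l)))) (A (A (A (O l) (O l)) (A (O l) (O l))) (A (A (O l) (O l)) (A (O l) (O l)))))) (A (A (A (A (A (O l)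 (O l)) (A (O l) (O l))) (A (A (O l) (O l)) (A (O l) (O l)))) (A (A (A (O l) (O l)) (A (O l) (O l))) (A (A (O l) (O l)) (O l)))) (A (A (A (O l) (O l)) (A (O l) (O l))) (A (A (O l) (O l)) (A (O l) (O l)))))))))))

theorem hpl1 (x : ℝ) (h0 : 0 ≤ x) (h1 : x ≤ 1) : evalIL lpl1 x 0 ≤ 0 :=
  uni_le 11 65536 lpl1 (by norm_num) (by norm_num) (by decide +kernel)
    (chkOut_sound (uniPb 11 65536 lpl1) tpl1 0 32768 0 32768 (by decide +kernel)) x h0 h1

/-- Certificate polynomial. -/
def lnu1 : List ITm := [⟨(-29718750000000000000000000000000000),0,0⟩,⟨(-205698281250000000000000000000000000),1,0⟩,⟨86944500000000000000000000000000000,2,0⟩,⟨2196017228205000000000000000000000000,3,0⟩,⟨(-101204525322387000000000000000000000),4,0⟩,⟨(-6205942770857825688000000000000000000),5,0⟩,⟨(-1569934043602361279127000000000000000),6,0⟩,⟨6621233547776463439094034000000000000,7,0⟩,⟨3481268149720420191219090780000000000,8,0⟩,⟨(-2047738770402804889209390908889000000),9,0⟩,⟨(-1886988546512254279544594968090548000),10,0⟩,⟨(-371332691435045482626083607482515029),11,0⟩]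

/-- Certificate tree. -/
def tnu1 : OutT := (A (A (O l) (A (O l) (A (A (O l) (O l)) (A (O l) (A (O l) (O l)))))) (A (A (A (A (A (A (O l) (O l)) (A (O l) (O l))) (A (A (O l) (O l)) (A (O l) (O l)))) (A (A (A (O l) (O l)) (O l)) (A (O l) (O l)))) (A (A (A (O l) (O l)) (O l)) (A (O l) (O l)))) (A (A (A (O l) (A (O l) (O l))) (A (A (O l) (O l)) (A (O l) (O l)))) (A (A (A (A (O l) (O l)) (A (O l) (O l))) (A (A (O l) (A (O l) (O l))) (A (A (O l) (O l)) (A (O l) (A (O l) (O l)))))) (A (A (A (A (A (O l) (O l)) (A (O l) (O l))) (A (A (O l) (O l)) (A (O l) (O l)))) (A (A (A (O l) (O l)) (A (O l) (O l))) (A (O l) (O l)))) (A (A (A (O l) (O l)) (O l)) (A (O l) (O l))))))))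

theorem hnu1 (x : ℝ) (h0 : 0 ≤ x) (h1 : x ≤ 1) : evalIL lnu1 x 0 ≤ 0 :=
  uni_le 11 65536 lnu1 (by norm_num) (by norm_num) (by decide +kernel)
    (chkOut_sound (uniPb 11 65536 lnu1) tnu1 0 32768 0 32768 (by decide +kernel)) x h0 h1

/-- Certificate polynomial. -/
def lnl1 : List ITm := [⟨(-27718750000000000000000000000000000),0,0⟩,⟨229649718750000000000000000000000000,1,0⟩,⟨(-86944500000000000000000000000000000),2,0⟩,⟨(-2196017228205000000000000000000000000),3,0⟩,⟨101204525322387000000000000000000000,4,0⟩,⟨6205942770857825688000000000000000000,5,0⟩,⟨1569934043602361279127000000000000000,6,0⟩,⟨(-6621233547776463439094034000000000000),7,0⟩,⟨(-3481268149720420191219090780000000000),8,0⟩,⟨2047738770402804889209390908889000000,9,0⟩,⟨1886988546512254279544594968090548000,10,0⟩,⟨371332691435045482626083607482515029,11,0⟩]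

/-- Certificate tree. -/
def tnl1 : OutT := (A (A (A (A (O l) (O l)) (A (A (O l) (A (O l) (O l))) (A (A (O l) (O l)) (O l)))) (A (A (A (O l) (O l)) (O l)) (A (O l) (O l)))) (A (A (A (O l) (A (O l) (O l))) (A (A (O l) (O l)) (A (A (O l) (O l)) (A (O l) (A (O l) (O l)))))) (A (A (A (A (A (O l) (A (O l) (O l))) (A (A (O l) (O l)) (A (O l) (O l)))) (A (A (A (A (O l) (O l)) (A (O l) (O l))) (A (A (O l) (O l)) (A (O l) (O l)))) (A (A (O l) (O l)) (A (O l) (O l))))) (A (A (A (A (O l) (O l)) (A (O l) (O l))) (A (O l) (O l))) (A (A (O l) (O l)) (A (O l) (O l))))) (A (A (A (O l) (O l)) (A (O l) (O l))) (A (A (O l) (O l)) (A (A (O l) (O l)) (A (O l) (A (O l) (A (O l) (A (O l) (O l)))))))))))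

theorem hnl1 (x : ℝ) (h0 : 0 ≤ x) (h1 : x ≤ 1) : evalIL lnl1 x 0 ≤ 0 :=
  uni_le 11 65536 lnl1 (by norm_num) (by norm_num) (by decide +kernel)
    (chkOut_sound (uniPb 11 65536 lnl1) tnl1 0 32768 0 32768 (by decide +kernel)) x h0 h1

theorem apx1 (u : ℝ) (h0 : -(417 / 1000 : ℝ) ≤ u) (h1 : u ≤ 2 * (417 / 1000 : ℝ)) :
    |((1 + u)⁻¹) ^ 1 - evalZ Ax.p1 (3 * u) / Ax.D1| ≤ Ax.e1 * |u| ^ Ax.m1 := by
  have hu : 0 < 1 + u := by norm_num at h0 ⊢; linarith
  refine apx_of_S 1 2 _ (S1 u) _ u hu ?_ ?_ ?_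
  · simp only [Ax, evalZ_cons, evalZ_nil, S1]
    push_cast
    ring
  · rcases le_total 0 u with hs | hs
    · have hx := hpu1 (u / (2 * (417 / 1000 : ℝ))) (by positivity) (by rw [div_le_one (by norm_num)]; exact h1)
      have e : evalIL lpu1 (u / (2 * (417 / 1000 : ℝ))) 0 = 8192000000000000000000000000000000000 * (S1 u - Ax.e1 * (1 + u) ^ 1) := by
        simp only [lpu1, evalIL, List.map_cons, List.map_nil, List.sum_cons, List.sum_nil, S1, Ax]
        push_cast
        ring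
      rw [e] at hx
      have := cmul_nonpos (by norm_num) hx
      simp only [Ax] at this ⊢
      linarith
    · have hx := hnu1 (-u / (417 / 1000 : ℝ)) (by apply div_nonneg <;> [linarith; norm_num]) (by rw [div_le_one (by norm_num)]; linarith)
      have e : evalIL lnu1 (-u / (417 / 1000 : ℝ)) 0 = 16777216000000000000000000000000000000000 * (S1 u - Ax.e1 * (1 + u) ^ 1) := by
        simp only [lnu1, evalIL, List.map_cons, List.map_nil, List.sum_cons, List.sum_nil, S1, Ax]
        push_cast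
        ring
      rw [e] at hx
      have := cmul_nonpos (by norm_num) hx
      simp only [Ax] at this ⊢
      linarith
  · rcases le_total 0 u with hs | hs
    · have hx := hpl1 (u / (2 * (417 / 1000 : ℝ))) (by positivity) (by rw [div_le_one (by norm_num)]; exact h1)
      have e : evalIL lpl1 (u / (2 * (417 / 1000 : ℝ))) 0 = 8192000000000000000000000000000000000 * (-S1 u - Ax.e1 * (1 + u) ^ 1) := by
        simp only [lpl1, evalIL, List.map_cons, List.map_nil, List.sum_cons, List.sum_nil, S1, Ax]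
        push_cast
        ring
      rw [e] at hx
      have := cmul_nonpos (by norm_num) hx
      simp only [Ax] at this ⊢
      linarith
    · have hx := hnl1 (-u / (417 / 1000 : ℝ)) (by apply div_nonneg <;> [linarith; norm_num]) (by rw [div_le_one (by norm_num)]; linarith)
      have e : evalIL lnl1 (-u / (417 / 1000 : ℝ)) 0 = 16777216000000000000000000000000000000000 * (-S1 u - Ax.e1 * (1 + u) ^ 1) := by
        simp only [lnl1, evalIL, List.map_cons, List.map_nil, List.sum_cons, List.sum_nil, S1, Ax]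
        push_cast
        ring
      rw [e] at hx
      have := cmul_nonpos (by norm_num) hx
      simp only [Ax] at this ⊢
      linarith

/-- The quotient polynomial for `j = 2`. -/
noncomputable def S2 (u : ℝ) : ℝ :=
  (3 / 16777216 : ℝ) * u ^ 0 + (57 / 131072 : ℝ) * u ^ 1 + (5713 / 8388608 : ℝ) * u ^ 2 + (-418045 / 16777216 : ℝ) * u ^ 3 + (-385323 / 16777216 : ℝ) * u ^ 4 + (3418273 / 8388608 : ℝ) * u ^ 5 + (1771581 / 16777216 : ℝ) * u ^ 6 + (-22930227 / 8388608 : ℝ) * u ^ 7 + (7684859 / 8388608 : ℝ) * u ^ 8 + (123243483 / 16777216 : ℝ) * u ^ 9 + (-97064829 / 16777216 : ℝ) * u ^ 10 + (-4669401 / 1048576 : ℝ) * u ^ 11 + (36309309 / 8388608 : ℝ) * u ^ 12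

/-- Certificate polynomial. -/
def lpu2 : List ITm := [⟨(-48274993896484375000000000000000000),0,0⟩,⟨661647720336914062500000000000000000,1,0⟩,⟨936311709732055664062500000000000000,2,0⟩,⟨(-29602694395590820312500000000000000000),3,0⟩,⟨(-22756171169376333984375000000000000000),4,0⟩,⟨336726308992935257507812500000000000000,5,0⟩,⟨72772513288262675213976562500000000000,6,0⟩,⟨(-1571125077223515682645786593750000000000),7,0⟩,⟨439141378378660438360319263687500000000,8,0⟩,⟨2936760130711119255303991323115687500000,9,0⟩,⟨(-1929001016612332305269649377757527625000),10,0⟩,⟨(-1238276890783501349930605355040213732000),11,0⟩,⟨1003807979457228929958055566975747970749,12,0⟩]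

/-- Certificate tree. -/
def tpu2 : OutT := (A (A (A (A (O l) (A (A (O l) (O l)) (A (O l) (A (O l) (O l))))) (A (A (A (O l) (O l)) (O l)) (A (O l) (O l)))) (A (A (A (O l) (O l)) (A (O l) (A (O l) (O l)))) (A (A (A (O l) (O l)) (A (O l) (A (O l) (O l)))) (A (A (A (O l) (O l)) (A (O l) (O l))) (A (A (A (O l) (O l)) (A (O l) (O l))) (A (A (O l) (O l)) (A (O l) (O l)))))))) (A (A (A (A (A (A (A (A (O l) (O l)) (A (O l) (O l))) (A (A (O l) (O l)) (A (O l) (O l)))) (A (A (A (O l) (O l)) (A (A (O l) (O l)) (A (O l) (O l)))) (A (A (A (O l) (O l)) (A (O l) (O l))) (A (A (O l) (O l)) (A (O l) (O l)))))) (A (A (A (A (A (O l) (O l)) (A (O l) (O l))) (A (A (O l) (O l)) (A (O l) (O l)))) (A (A (A (O l) (O l)) (A (O l) (O l))) (A (A (O l) (O l)) (A (O l) (O l))))) (A (A (A (O l) (O l)) (A (O l) (O l))) (A (A (O l) (O l)) (A (O l) (O l)))))) (A (A (A (A (A (O l) (O l)) (A (O l) (O l))) (A (A (O l) (O l)) (A (O l) (O l)))) (A (A (A (O l) (O l)) (O l)) (A (O l) (O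 l)))) (A (A (A (O l) (O l)) (A (O l) (O l))) (A (A (O l) (O l)) (A (O l) (O l)))))) (A (A (A (A (A (O l) (O l)) (A (O l) (O l))) (A (A (O l) (O l)) (A (O l) (O l)))) (A (A (A (O l) (O l)) (A (O l) (O l))) (A (A (O l) (O l)) (A (O l) (O l))))) (A (A (A (A (O l) (O l)) (A (O l) (O l))) (A (A (O l) (O l)) (A (O l) (O l)))) (A (A (A (O l) (O l)) (A (O l) (O l))) (A (A (O l) (O l)) (A (O l) (O l))))))) (A (A (A (A (A (A (O l) (O l)) (A (O l) (O l))) (A (A (O l) (A (O l) (O l))) (A (A (O l) (O l)) (A (O l) (O l))))) (A (A (A (A (O l) (O l)) (A (O l) (O l))) (A (A (O l) (O l)) (A (O l) (O l)))) (A (A (A (O l) (O l)) (A (O l) (O l))) (A (A (O l) (O l)) (A (O l) (O l)))))) (A (A (A (A (A (O l) (O l)) (A (O l) (O l))) (A (A (O l) (A (O l) (O l))) (A (A (O l) (O l)) (A (O l) (O l))))) (A (A (A (A (O l) (O l)) (A (O l) (O l))) (A (A (O l) (O l)) (A (O l) (O l)))) (A (A (A (O l) (O l)) (A (O l) (O l))) (A (A (O l) (O l)) (A (O l) (O l)))))) (A (A (A (A (A (O l)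 (O l)) (A (O l) (A (O l) (O l)))) (A (A (A (O l) (O l)) (A (O l) (O l))) (A (A (O l) (O l)) (A (O l) (O l))))) (A (A (A (A (O l) (O l)) (A (O l) (O l))) (A (A (O l) (O l)) (A (O l) (O l)))) (A (A (A (O l) (O l)) (A (O l) (O l))) (A (A (O l) (O l)) (A (O l) (O l)))))) (A (A (A (A (A (O l) (O l)) (A (O l) (O l))) (A (A (A (O l) (O l)) (A (O l) (O l))) (A (A (O l) (O l)) (A (O l) (O l))))) (A (A (A (A (O l) (O l)) (A (O l) (O l))) (A (A (O l) (O l)) (A (O l) (O l)))) (A (A (A (O l) (O l)) (A (O l) (O l))) (A (A (O l) (O l)) (A (O l) (O l)))))) (A (A (A (A (A (O l) (O l)) (A (O l) (O l))) (A (A (O l) (O l)) (A (O l) (O l)))) (A (A (A (O l) (O l)) (A (O l) (O l))) (A (A (O l) (O l)) (A (O l) (O l))))) (A (A (A (A (O l) (O l)) (A (O l) (O l))) (A (A (O l) (O l)) (A (O l) (O l)))) (A (A (A (O l) (O l)) (A (O l) (O l))) (A (A (O l) (O l)) (A (O l) (O l)))))))))) (A (A (A (A (A (A (A (A (A (O l) (O l)) (A (O l) (O l))) (A (A (O l) (O l)) (A (O l) (O l))))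 (A (A (A (O l) (O l)) (A (O l) (O l))) (A (A (O l) (O l)) (A (O l) (O l))))) (A (A (A (A (O l) (O l)) (A (O l) (O l))) (A (A (O l) (O l)) (A (O l) (O l)))) (A (A (A (O l) (O l)) (A (O l) (O l))) (A (O l) (O l))))) (A (A (A (A (O l) (O l)) (A (O l) (O l))) (A (A (O l) (O l)) (A (O l) (O l)))) (A (A (A (O l) (O l)) (A (O l) (O l))) (A (A (O l) (O l)) (A (O l) (O l)))))) (A (A (A (A (A (O l) (O l)) (A (O l) (O l))) (A (A (O l) (O l)) (A (O l) (O l)))) (A (A (A (O l) (O l)) (A (O l) (O l))) (A (A (O l) (O l)) (A (O l) (O l))))) (A (A (A (O l) (O l)) (A (O l) (O l))) (A (A (O l) (O l)) (A (O l) (O l)))))) (A (A (A (A (A (O l) (O l)) (A (O l) (O l))) (A (A (O l) (O l)) (A (O l) (O l)))) (A (A (A (O l) (O l)) (A (O l) (O l))) (A (A (O l) (O l)) (A (O l) (O l))))) (A (A (A (A (O l) (O l)) (A (O l) (O l))) (A (A (O l) (O l)) (A (O l) (O l)))) (A (A (A (O l) (O l)) (A (O l) (O l))) (A (A (O l) (O l)) (A (O l) (O l))))))) (A (A (A (A (A (A (O l) (O l)) (A (O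 l) (O l))) (A (O l) (O l))) (A (A (O l) (O l)) (A (O l) (O l)))) (A (A (A (O l) (O l)) (A (O l) (O l))) (A (A (O l) (O l)) (A (O l) (O l))))) (A (A (A (A (O l) (O l)) (A (O l) (O l))) (A (A (A (O l) (O l)) (A (O l) (O l))) (A (A (O l) (O l)) (A (O l) (O l))))) (A (A (A (A (O l) (O l)) (A (O l) (O l))) (A (A (O l) (O l)) (A (O l) (O l)))) (A (A (A (O l) (O l)) (A (O l) (O l))) (A (A (A (O l) (O l)) (A (O l) (O l))) (A (A (O l) (O l)) (A (A (O l) (O l)) (A (O l) (A (O l) (O l))))))))))))))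

theorem hpu2 (x : ℝ) (h0 : 0 ≤ x) (h1 : x ≤ 1) : evalIL lpu2 x 0 ≤ 0 :=
  uni_le 12 65536 lpu2 (by norm_num) (by norm_num) (by decide +kernel)
    (chkOut_sound (uniPb 12 65536 lpu2) tpu2 0 32768 0 32768 (by decide +kernel)) x h0 h1

/-- Certificate polynomial. -/
def lpl2 : List ITm := [⟨(-49007415771484375000000000000000000),0,0⟩,⟨(-823914779663085937500000000000000000),1,0⟩,⟨(-1003977073471069335937500000000000000),2,0⟩,⟨29602694395590820312500000000000000000,3,0⟩,⟨22756171169376333984375000000000000000,4,0⟩,⟨(-336726308992935257507812500000000000000),5,0⟩,⟨(-72772513288262675213976562500000000000),6,0⟩,⟨1571125077223515682645786593750000000000,7,0⟩,⟨(-439141378378660438360319263687500000000),8,0⟩,⟨(-2936760130711119255303991323115687500000),9,0⟩,⟨1929001016612332305269649377757527625000,10,0⟩,⟨1238276890783501349930605355040213732000,11,0⟩,⟨(-1003807979457228929958055566975747970749),12,0⟩]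

/-- Certificate tree. -/
def tpl2 : OutT := (A (A (A (O l) (A (O l) (A (O l) (O l)))) (A (A (A (A (O l) (A (O l) (O l))) (A (A (O l) (O l)) (A (A (O l) (O l)) (A (O l) (O l))))) (A (A (A (A (O l) (O l)) (A (O l) (O l))) (A (A (O l) (O l)) (A (O l) (O l)))) (A (A (A (O l) (O l)) (O l)) (A (O l) (O l))))) (A (A (A (A (O l) (O l)) (A (O l) (O l))) (A (A (O l) (O l)) (A (O l) (O l)))) (A (A (O l) (O l)) (A (A (O l) (O l)) (A (O l) (O l))))))) (A (A (A (A (A (A (O l) (O l)) (A (O l) (O l))) (A (A (O l) (O l)) (A (O l) (O l)))) (A (A (A (O l) (O l)) (A (O l) (O l))) (A (A (O l) (A (O l) (O l))) (A (A (O l) (O l)) (A (O l) (O l)))))) (A (A (A (A (A (O l) (O l)) (A (O l) (O l))) (A (A (O l) (O l)) (A (O l) (O l)))) (A (A (A (A (O l) (O l)) (A (O l) (O l))) (A (A (O l) (O l)) (A (O l) (O l)))) (A (A (A (O l) (O l)) (A (O l) (O l))) (A (A (O l) (O l)) (A (O l) (O l)))))) (A (A (A (A (A (A (O l) (O l)) (A (O l) (O l))) (A (A (O l) (O l)) (A (O l) (O l)))) (A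 (A (A (O l) (O l)) (A (O l) (O l))) (A (A (O l) (O l)) (A (O l) (O l))))) (A (A (A (A (O l) (O l)) (A (A (O l) (O l)) (A (O l) (O l)))) (A (A (A (O l) (O l)) (A (O l) (O l))) (A (A (O l) (O l)) (A (O l) (O l))))) (A (A (A (A (O l) (O l)) (A (O l) (O l))) (A (A (O l) (O l)) (A (O l) (O l)))) (A (A (A (O l) (O l)) (A (O l) (O l))) (A (A (O l) (O l)) (A (O l) (O l))))))) (A (A (A (A (A (A (O l) (O l)) (A (O l) (O l))) (A (A (O l) (O l)) (A (O l) (O l)))) (A (A (A (O l) (O l)) (A (O l) (O l))) (A (A (O l) (O l)) (A (O l) (O l))))) (A (A (A (A (O l) (O l)) (A (O l) (O l))) (A (A (O l) (O l)) (A (O l) (O l)))) (A (A (A (O l) (O l)) (A (O l) (O l))) (A (A (O l) (O l)) (A (O l) (O l)))))) (A (A (A (A (A (O l) (O l)) (A (O l) (O l))) (A (A (O l) (O l)) (A (O l) (O l)))) (A (A (A (O l) (O l)) (O l)) (A (O l) (O l)))) (A (A (A (O l) (O l)) (A (O l) (O l))) (A (A (O l) (O l)) (A (O l) (O l))))))))) (A (A (A (A (A (A (A (A (O l) (O l)) (A (O l) (O l))) (A (A (O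 l) (O l)) (A (O l) (O l)))) (A (A (A (O l) (O l)) (A (O l) (O l))) (A (A (O l) (O l)) (A (O l) (O l))))) (A (A (A (A (O l) (O l)) (A (O l) (O l))) (A (O l) (O l))) (A (A (O l) (O l)) (A (O l) (O l))))) (A (A (A (A (O l) (O l)) (A (O l) (O l))) (A (A (O l) (O l)) (A (O l) (O l)))) (A (A (A (O l) (O l)) (A (O l) (O l))) (A (A (O l) (O l)) (A (O l) (O l)))))) (A (A (A (A (A (O l) (O l)) (A (O l) (O l))) (A (A (O l) (O l)) (A (O l) (O l)))) (A (A (A (O l) (O l)) (A (O l) (O l))) (A (A (O l) (O l)) (A (O l) (O l))))) (A (A (A (A (O l) (O l)) (A (O l) (O l))) (A (A (O l) (O l)) (A (O l) (O l)))) (A (A (A (O l) (O l)) (A (O l) (O l))) (A (A (O l) (O l)) (A (O l) (O l))))))) (A (A (A (A (A (A (O l) (O l)) (A (O l) (O l))) (A (A (O l) (O l)) (A (O l) (O l)))) (A (A (A (O l) (O l)) (A (O l) (O l))) (A (A (O l) (O l)) (A (O l) (O l))))) (A (A (A (A (O l) (O l)) (A (O l) (O l))) (A (A (O l) (O l)) (A (A (O l) (O l)) (A (O l) (O l))))) (A (A (A (A (O l) (O l))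 (A (O l) (O l))) (A (A (O l) (O l)) (A (O l) (O l)))) (A (A (A (O l) (O l)) (A (O l) (O l))) (A (A (O l) (O l)) (A (O l) (O l))))))) (A (A (A (A (A (A (O l) (O l)) (A (O l) (O l))) (A (A (O l) (O l)) (A (O l) (O l)))) (A (A (A (A (O l) (O l)) (A (O l) (O l))) (A (A (O l) (O l)) (A (O l) (O l)))) (A (A (A (O l) (O l)) (A (O l) (O l))) (A (A (O l) (O l)) (A (O l) (O l)))))) (A (A (A (A (A (O l) (O l)) (A (O l) (O l))) (A (A (O l) (O l)) (A (O l) (O l)))) (A (A (A (O l) (A (O l) (O l))) (A (A (O l) (O l)) (A (O l) (O l)))) (A (A (A (O l) (O l)) (A (O l) (O l))) (A (A (O l) (O l)) (A (O l) (O l)))))) (A (A (A (A (A (O l) (O l)) (A (O l) (O l))) (A (A (O l) (O l)) (A (O l) (O l)))) (A (A (A (O l) (O l)) (A (O l) (O l))) (A (A (O l) (O l)) (A (A (O l) (O l)) (A (O l) (O l)))))) (A (A (A (A (A (O l) (O l)) (A (O l) (O l))) (A (A (O l) (O l)) (A (O l) (O l)))) (A (A (A (O l) (O l)) (A (O l) (O l))) (A (A (O l) (O l)) (A (O l) (O l))))) (A (A (A (A (O l) (O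 l)) (A (O l) (O l))) (A (A (O l) (O l)) (A (O l) (O l)))) (A (A (A (O l) (O l)) (A (O l) (O l))) (A (A (O l) (O l)) (A (O l) (O l))))))))) (A (A (A (A (A (A (A (A (O l) (O l)) (A (O l) (O l))) (A (A (O l) (O l)) (A (O l) (O l)))) (A (A (O l) (O l)) (A (O l) (O l)))) (A (A (A (O l) (O l)) (A (O l) (O l))) (A (A (O l) (O l)) (A (O l) (O l))))) (A (A (A (A (O l) (O l)) (A (O l) (O l))) (A (A (O l) (O l)) (A (O l) (O l)))) (A (A (A (O l) (O l)) (A (O l) (O l))) (A (A (O l) (O l)) (O l))))) (A (A (A (A (O l) (O l)) (A (O l) (O l))) (A (A (O l) (O l)) (A (O l) (O l)))) (A (A (A (O l) (O l)) (A (O l) (O l))) (A (A (O l) (O l)) (A (O l) (O l)))))) (A (A (A (A (A (O l) (O l)) (O l)) (A (O l) (O l))) (A (A (O l) (O l)) (A (O l) (O l)))) (A (A (A (O l) (O l)) (A (O l) (O l))) (A (A (O l) (O l)) (A (O l) (O l)))))))))))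

theorem hpl2 (x : ℝ) (h0 : 0 ≤ x) (h1 : x ≤ 1) : evalIL lpl2 x 0 ≤ 0 :=
  uni_le 12 65536 lpl2 (by norm_num) (by norm_num) (by decide +kernel)
    (chkOut_sound (uniPb 12 65536 lpl2) tpl2 0 32768 0 32768 (by decide +kernel)) x h0 h1

/-- Certificate polynomial. -/
def lnu2 : List ITm := [⟨(-197734375000000000000000000000000000000),0,0⟩,⟨(-1355054531250000000000000000000000000000),1,0⟩,⟨958783190765625000000000000000000000000,2,0⟩,⟨15156579530542500000000000000000000000000,3,0⟩,⟨(-5825579819360341500000000000000000000000),4,0⟩,⟨(-43100967551095712961000000000000000000000),5,0⟩,⟨4657440850448811213694500000000000000000,6,0⟩,⟨50276002471152501844665171000000000000000,7,0⟩,⟨7026262054058567013765108219000000000000,8,0⟩,⟨(-23494081045688954042431930584925500000000),9,0⟩,⟨(-7716004066449329221078597511030110500000),10,0⟩,⟨2476553781567002699861210710080427464000,11,0⟩,⟨1003807979457228929958055566975747970749,12,0⟩]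

/-- Certificate tree. -/
def tnu2 : OutT := (A (A (O l) (A (A (O l) (O l)) (A (A (O l) (O l)) (A (O l) (A (O l) (O l)))))) (A (A (A (A (A (A (O l) (O l)) (A (O l) (O l))) (A (A (O l) (A (O l) (O l))) (A (O l) (O l)))) (A (A (A (O l) (O l)) (A (O l) (O l))) (A (O l) (O l)))) (A (A (A (O l) (O l)) (A (O l) (O l))) (A (A (O l) (O l)) (A (O l) (O l))))) (A (A (A (A (O l) (O l)) (A (O l) (O l))) (A (A (O l) (O l)) (A (O l) (O l)))) (A (A (A (A (O l) (O l)) (A (O l) (O l))) (A (A (A (O l) (O l)) (A (O l) (O l))) (A (A (O l) (O l)) (A (A (O l) (O l)) (A (O l) (O l)))))) (A (A (A (A (A (O l) (O l)) (A (A (O l) (O l)) (A (O l) (O l)))) (A (A (A (O l) (O l)) (A (O l) (O l))) (A (A (O l) (O l)) (A (O l) (O l))))) (A (A (A (O l) (O l)) (A (O l) (O l))) (A (A (O l) (O l)) (O l)))) (A (A (A (O l) (O l)) (A (O l) (O l))) (A (O l) (O l))))))))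

theorem hnu2 (x : ℝ) (h0 : 0 ≤ x) (h1 : x ≤ 1) : evalIL lnu2 x 0 ≤ 0 :=
  uni_le 12 65536 lnu2 (by norm_num) (by norm_num) (by decide +kernel)
    (chkOut_sound (uniPb 12 65536 lnu2) tnu2 0 32768 0 32768 (by decide +kernel)) x h0 h1

/-- Certificate polynomial. -/
def lnl2 : List ITm := [⟨(-200734375000000000000000000000000000000),0,0⟩,⟨1687377468750000000000000000000000000000,1,0⟩,⟨(-1028072523234375000000000000000000000000),2,0⟩,⟨(-15156579530542500000000000000000000000000),3,0⟩,⟨5825579819360341500000000000000000000000,4,0⟩,⟨43100967551095712961000000000000000000000,5,0⟩,⟨(-4657440850448811213694500000000000000000),6,0⟩,⟨(-50276002471152501844665171000000000000000),7,0⟩,⟨(-7026262054058567013765108219000000000000),8,0⟩,⟨23494081045688954042431930584925500000000,9,0⟩,⟨7716004066449329221078597511030110500000,10,0⟩,⟨(-2476553781567002699861210710080427464000),11,0⟩,⟨(-1003807979457228929958055566975747970749),12,0⟩]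

/-- Certificate tree. -/
def tnl2 : OutT := (A (A (A (A (O l) (O l)) (A (A (O l) (A (O l) (O l))) (A (A (O l) (O l)) (A (O l) (O l))))) (A (A (A (O l) (O l)) (O l)) (A (O l) (O l)))) (A (A (A (O l) (A (O l) (O l))) (A (A (O l) (A (O l) (O l))) (A (A (O l) (O l)) (A (A (O l) (O l)) (A (O l) (O l)))))) (A (A (A (A (A (O l) (A (O l) (O l))) (A (A (O l) (O l)) (A (O l) (A (O l) (O l))))) (A (A (A (A (O l) (O l)) (A (O l) (O l))) (A (A (O l) (O l)) (A (O l) (O l)))) (A (A (A (O l) (O l)) (A (O l) (O l))) (A (A (O l) (O l)) (O l))))) (A (A (A (A (O l) (O l)) (A (O l) (O l))) (A (A (O l) (O l)) (O l))) (A (A (O l) (O l)) (A (O l) (O l))))) (A (A (A (A (O l) (O l)) (A (O l) (O l))) (A (A (O l) (O l)) (O l))) (A (A (A (O l) (O l)) (A (O l) (O l))) (A (A (O l) (O l)) (A (A (O l) (O l)) (A (O l) (A (O l) (A (O l) (O l)))))))))))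

theorem hnl2 (x : ℝ) (h0 : 0 ≤ x) (h1 : x ≤ 1) : evalIL lnl2 x 0 ≤ 0 :=
  uni_le 12 65536 lnl2 (by norm_num) (by norm_num) (by decide +kernel)
    (chkOut_sound (uniPb 12 65536 lnl2) tnl2 0 32768 0 32768 (by decide +kernel)) x h0 h1

theorem apx2 (u : ℝ) (h0 : -(417 / 1000 : ℝ) ≤ u) (h1 : u ≤ 2 * (417 / 1000 : ℝ)) :
    |((1 + u)⁻¹) ^ 2 - evalZ Ax.p2 (3 * u) / Ax.D2| ≤ Ax.e2 * |u| ^ Ax.m2 := by
  have hu : 0 < 1 + u := by norm_num at h0 ⊢; linarith
  refine apx_of_S 2 2 _ (S2 u) _ u hu ?_ ?_ ?_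
  · simp only [Ax, evalZ_cons, evalZ_nil, S2]
    push_cast
    ring
  · rcases le_total 0 u with hs | hs
    · have hx := hpu2 (u / (2 * (417 / 1000 : ℝ))) (by positivity) (by rw [div_le_one (by norm_num)]; exact h1)
      have e : evalIL lpu2 (u / (2 * (417 / 1000 : ℝ))) 0 = 2048000000000000000000000000000000000000 * (S2 u - Ax.e2 * (1 + u) ^ 2) := by
        simp only [lpu2, evalIL, List.map_cons, List.map_nil, List.sum_cons, List.sum_nil, S2, Ax]
        push_cast
        ring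
      rw [e] at hx
      have := cmul_nonpos (by norm_num) hx
      simp only [Ax] at this ⊢
      linarith
    · have hx := hnu2 (-u / (417 / 1000 : ℝ)) (by apply div_nonneg <;> [linarith; norm_num]) (by rw [div_le_one (by norm_num)]; linarith)
      have e : evalIL lnu2 (-u / (417 / 1000 : ℝ)) 0 = 8388608000000000000000000000000000000000000 * (S2 u - Ax.e2 * (1 + u) ^ 2) := by
        simp only [lnu2, evalIL, List.map_cons, List.map_nil, List.sum_cons, List.sum_nil, S2, Ax]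
        push_cast
        ring
      rw [e] at hx
      have := cmul_nonpos (by norm_num) hx
      simp only [Ax] at this ⊢
      linarith
  · rcases le_total 0 u with hs | hs
    · have hx := hpl2 (u / (2 * (417 / 1000 : ℝ))) (by positivity) (by rw [div_le_one (by norm_num)]; exact h1)
      have e : evalIL lpl2 (u / (2 * (417 / 1000 : ℝ))) 0 = 2048000000000000000000000000000000000000 * (-S2 u - Ax.e2 * (1 + u) ^ 2) := by
        simp only [lpl2, evalIL, List.map_cons, List.map_nil, List.sum_cons, List.sum_nil, S2, Ax]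
        push_cast
        ring
      rw [e] at hx
      have := cmul_nonpos (by norm_num) hx
      simp only [Ax] at this ⊢
      linarith
    · have hx := hnl2 (-u / (417 / 1000 : ℝ)) (by apply div_nonneg <;> [linarith; norm_num]) (by rw [div_le_one (by norm_num)]; linarith)
      have e : evalIL lnl2 (-u / (417 / 1000 : ℝ)) 0 = 8388608000000000000000000000000000000000000 * (-S2 u - Ax.e2 * (1 + u) ^ 2) := by
        simp only [lnl2, evalIL, List.map_cons, List.map_nil, List.sum_cons, List.sum_nil, S2, Ax]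
        push_cast
        ring
      rw [e] at hx
      have := cmul_nonpos (by norm_num) hx
      simp only [Ax] at this ⊢
      linarith

/-- The quotient polynomial for `j = 3`. -/
noncomputable def S3 (u : ℝ) : ℝ :=
  (-4243 / 8388608 : ℝ) * u ^ 0 + (17333 / 8388608 : ℝ) * u ^ 1 + (1356647 / 16777216 : ℝ) * u ^ 2 + (13605 / 4194304 : ℝ) * u ^ 3 + (-15952543 / 8388608 : ℝ) * u ^ 4 + (-4763719 / 8388608 : ℝ) * u ^ 5 + (261538227 / 16777216 : ℝ) * u ^ 6 + (27990377 / 16777216 : ℝ) * u ^ 7 + (-890323075 / 16777216 : ℝ) * u ^ 8 + (107365133 / 16777216 : ℝ) * u ^ 9 + (1130780479 / 16777216 : ℝ) * u ^ 10 + (-66811665 / 8388608 : ℝ) * u ^ 11 + (-247961047 / 8388608 : ℝ) * u ^ 12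

/-- Certificate polynomial. -/
def lpu3 : List ITm := [⟨(-2181049346923828125000000000000000000),0,0⟩,⟨664036994934082031250000000000000000,1,0⟩,⟨112798901633560180664062500000000000000,2,0⟩,⟨3189300499855316162109375000000000000,3,0⟩,⟨(-1884231146829212121093750000000000000000),4,0⟩,⟨(-469263138418001298304687500000000000000),5,0⟩,⟨10743394798062386075341898437500000000000,6,0⟩,⟨958917310884892618434783140625000000000,7,0⟩,⟨(-25438183209205756140861361596093750000000),8,0⟩,⟨2558396065639403451658161785618812500000,9,0⟩,⟨22472369405362884649598345735948383875000,10,0⟩,⟨(-2214720389303383874040036886641156472500),11,0⟩,⟨(-6855136724666640645545998258228629204567),12,0⟩]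

/-- Certificate tree. -/
def tpu3 : OutT := (A (A (A (O l) (A (A (O l) (A (O l) (O l))) (A (A (A (O l) (O l)) (A (O l) (O l))) (A (A (O l) (O l)) (O l))))) (A (A (A (A (O l) (O l)) (O l)) (A (O l) (O l))) (A (A (O l) (O l)) (A (O l) (A (O l) (O l)))))) (A (A (A (A (A (O l) (O l)) (A (O l) (A (O l) (O l)))) (A (A (A (O l) (O l)) (A (O l) (O l))) (A (A (O l) (A (O l) (O l))) (A (A (O l) (O l)) (A (O l) (O l)))))) (A (A (A (A (A (O l) (O l)) (A (A (O l) (O l)) (A (O l) (O l)))) (A (A (A (O l) (O l)) (A (O l) (O l))) (A (A (O l) (O l)) (A (A (O l) (O l)) (A (O l) (O l)))))) (A (A (A (A (A (O l) (O l)) (A (O l) (O l))) (A (A (O l) (O l)) (A (O l) (O l)))) (A (A (A (O l) (O l)) (A (O l) (O l))) (A (A (O l) (O l)) (A (O l) (O l))))) (A (A (A (A (O l) (O l)) (A (O l) (O l))) (A (A (O l) (O l)) (O l))) (A (A (O l) (O l)) (A (O l) (O l)))))) (A (A (A (A (A (O l) (O l)) (A (O l) (O l))) (A (A (O l) (O l)) (A (O l) (O l)))) (A (A (O l) (O l)) (A (O l) (O l))))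 (A (A (A (O l) (O l)) (A (O l) (O l))) (A (A (O l) (O l)) (A (O l) (O l))))))) (A (A (A (A (A (A (O l) (O l)) (A (O l) (O l))) (A (A (O l) (O l)) (A (O l) (O l)))) (A (A (A (O l) (O l)) (O l)) (A (O l) (O l)))) (A (A (A (O l) (O l)) (A (O l) (A (O l) (O l)))) (A (A (A (O l) (O l)) (A (O l) (O l))) (A (A (O l) (O l)) (A (O l) (O l)))))) (A (A (A (A (A (O l) (O l)) (A (O l) (O l))) (A (A (O l) (O l)) (A (O l) (O l)))) (A (A (A (O l) (O l)) (A (A (O l) (O l)) (A (O l) (O l)))) (A (A (A (O l) (O l)) (A (O l) (O l))) (A (A (O l) (O l)) (A (O l) (O l)))))) (A (A (A (A (A (O l) (A (O l) (O l))) (A (A (O l) (O l)) (A (O l) (O l)))) (A (A (A (O l) (O l)) (A (O l) (O l))) (A (A (O l) (O l)) (A (A (O l) (O l)) (A (O l) (O l)))))) (A (A (A (A (A (O l) (O l)) (A (O l) (O l))) (A (A (O l) (O l)) (A (O l) (O l)))) (A (A (A (O l) (O l)) (A (O l) (O l))) (A (A (O l) (O l)) (A (O l) (O l))))) (A (A (A (A (O l) (O l)) (A (O l) (O l))) (A (A (O l) (O l)) (A (O l) (O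 l)))) (A (A (A (O l) (O l)) (A (O l) (O l))) (A (A (O l) (O l)) (O l)))))) (A (A (A (A (A (O l) (O l)) (A (O l) (O l))) (A (A (O l) (O l)) (A (O l) (O l)))) (A (A (A (O l) (O l)) (O l)) (A (O l) (O l)))) (A (A (A (O l) (O l)) (A (O l) (O l))) (A (A (O l) (O l)) (O l)))))))))

theorem hpu3 (x : ℝ) (h0 : 0 ≤ x) (h1 : x ≤ 1) : evalIL lpu3 x 0 ≤ 0 :=
  uni_le 12 65536 lpu3 (by norm_num) (by norm_num) (by decide +kernel)
    (chkOut_sound (uniPb 12 65536 lpu3) tpu3 0 32768 0 32768 (by decide +kernel)) x h0 h1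

/-- Certificate polynomial. -/
def lpl3 : List ITm := [⟨(-109272003173828125000000000000000000),0,0⟩,⟨(-6394421012878417968750000000000000000),1,0⟩,⟨(-117578041904525756835937500000000000000),2,0⟩,⟨(-4517901495183746337890625000000000000),3,0⟩,⟨1884231146829212121093750000000000000000,4,0⟩,⟨469263138418001298304687500000000000000,5,0⟩,⟨(-10743394798062386075341898437500000000000),6,0⟩,⟨(-958917310884892618434783140625000000000),7,0⟩,⟨25438183209205756140861361596093750000000,8,0⟩,⟨(-2558396065639403451658161785618812500000),9,0⟩,⟨(-22472369405362884649598345735948383875000),10,0⟩,⟨2214720389303383874040036886641156472500,11,0⟩,⟨6855136724666640645545998258228629204567,12,0⟩]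

/-- Certificate tree. -/
def tpl3 : OutT := (A (A (A (A (A (O l) (O l)) (O l)) (A (O l) (O l))) (A (A (A (O l) (O l)) (A (O l) (A (O l) (O l)))) (A (A (A (O l) (A (O l) (O l))) (A (A (O l) (A (O l) (O l))) (A (A (O l) (O l)) (A (O l) (O l))))) (A (A (A (A (A (O l) (O l)) (A (O l) (O l))) (A (A (O l) (O l)) (O l))) (A (A (O l) (O l)) (A (O l) (O l)))) (A (A (A (O l) (O l)) (O l)) (A (O l) (O l))))))) (A (A (A (A (A (A (O l) (O l)) (A (O l) (O l))) (A (A (O l) (O l)) (A (O l) (O l)))) (A (A (O l) (O l)) (A (O l) (O l)))) (A (A (A (O l) (A (O l) (O l))) (A (A (O l) (O l)) (A (O l) (O l)))) (A (A (A (O l) (O l)) (A (O l) (O l))) (A (A (O l) (O l)) (A (O l) (O l)))))) (A (A (A (A (A (A (O l) (O l)) (A (O l) (O l))) (A (A (O l) (O l)) (A (O l) (O l)))) (A (A (A (O l) (O l)) (A (O l) (O l))) (A (A (A (O l) (O l)) (A (O l) (O l))) (A (A (O l) (O l)) (A (O l) (O l)))))) (A (A (A (A (A (O l) (O l)) (A (O l) (O l))) (A (A (A (O l) (O l)) (A (O l) (O l))) (A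 (A (O l) (O l)) (A (O l) (O l))))) (A (A (A (A (O l) (O l)) (A (O l) (O l))) (A (A (O l) (O l)) (A (O l) (A (O l) (O l))))) (A (A (A (A (O l) (O l)) (A (O l) (O l))) (A (A (O l) (O l)) (A (O l) (O l)))) (A (A (A (O l) (O l)) (A (O l) (O l))) (A (A (O l) (O l)) (A (O l) (O l))))))) (A (A (A (A (A (A (O l) (O l)) (A (O l) (O l))) (A (A (O l) (O l)) (A (O l) (O l)))) (A (A (A (O l) (O l)) (A (O l) (O l))) (A (A (O l) (O l)) (A (O l) (O l))))) (A (A (A (O l) (O l)) (A (O l) (O l))) (A (A (O l) (O l)) (A (O l) (O l))))) (A (A (A (A (O l) (O l)) (A (O l) (O l))) (A (A (O l) (O l)) (A (O l) (O l)))) (A (A (O l) (O l)) (A (O l) (O l))))))) (A (A (A (A (A (A (O l) (O l)) (A (O l) (O l))) (A (A (O l) (O l)) (A (O l) (O l)))) (A (A (A (O l) (O l)) (A (O l) (O l))) (A (A (O l) (O l)) (O l)))) (A (A (A (O l) (O l)) (A (O l) (O l))) (A (A (O l) (O l)) (A (O l) (O l))))) (A (A (A (A (O l) (O l)) (A (O l) (O l))) (A (A (O l) (O l)) (A (O l) (O l)))) (A (A (A (O l)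 (O l)) (A (O l) (O l))) (A (A (A (O l) (O l)) (A (O l) (O l))) (A (A (O l) (O l)) (A (A (O l) (O l)) (A (O l) (A (O l) (A (O l) (O l)))))))))))))

theorem hpl3 (x : ℝ) (h0 : 0 ≤ x) (h1 : x ≤ 1) : evalIL lpl3 x 0 ≤ 0 :=
  uni_le 12 65536 lpl3 (by norm_num) (by norm_num) (by decide +kernel)
    (chkOut_sound (uniPb 12 65536 lpl3) tpl3 0 32768 0 32768 (by decide +kernel)) x h0 h1

/-- Certificate polynomial. -/
def lnu3 : List ITm := [⟨(-8933578125000000000000000000000000000000),0,0⟩,⟨(-1359947765625000000000000000000000000000),1,0⟩,⟨115506075272765625000000000000000000000000,2,0⟩,⟨(-1632921855925921875000000000000000000000),3,0⟩,⟨(-482363173588278303000000000000000000000000),4,0⟩,⟨60065681717504166183000000000000000000000,5,0⟩,⟨687577267075992708821881500000000000000000,6,0⟩,⟨(-30685353948316563789913060500000000000000),7,0⟩,⟨(-407010931347292098253781785537500000000000),8,0⟩,⟨(-20467168525115227613265294284950500000000),9,0⟩,⟨89889477621451538598393382943793535500000,10,0⟩,⟨4429440778606767748080073773282312945000,11,0⟩,⟨(-6855136724666640645545998258228629204567),12,0⟩]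

/-- Certificate tree. -/
def tnu3 : OutT := (A (A (O l) (A (A (O l) (A (O l) (O l))) (A (A (O l) (A (O l) (A (O l) (O l)))) (A (A (A (O l) (O l)) (A (O l) (O l))) (A (A (O l) (O l)) (O l)))))) (A (A (A (A (A (O l) (O l)) (A (O l) (O l))) (A (O l) (O l))) (A (A (O l) (O l)) (A (O l) (O l)))) (A (A (A (O l) (A (O l) (O l))) (A (A (O l) (O l)) (A (O l) (A (O l) (O l))))) (A (A (A (A (O l) (O l)) (A (O l) (O l))) (A (A (A (O l) (O l)) (A (O l) (O l))) (A (A (A (O l) (O l)) (A (O l) (O l))) (A (A (O l) (O l)) (A (O l) (A (O l) (O l))))))) (A (A (A (A (A (A (O l) (O l)) (A (O l) (O l))) (A (O l) (O l))) (A (A (O l) (O l)) (A (O l) (O l)))) (A (A (O l) (O l)) (A (O l) (O l)))) (A (A (A (O l) (O l)) (O l)) (A (O l) (O l))))))))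

theorem hnu3 (x : ℝ) (h0 : 0 ≤ x) (h1 : x ≤ 1) : evalIL lnu3 x 0 ≤ 0 :=
  uni_le 12 65536 lnu3 (by norm_num) (by norm_num) (by decide +kernel)
    (chkOut_sound (uniPb 12 65536 lnu3) tnu3 0 32768 0 32768 (by decide +kernel)) x h0 h1

/-- Certificate polynomial. -/
def lnl3 : List ITm := [⟨(-447578125000000000000000000000000000000),0,0⟩,⟨13095774234375000000000000000000000000000,1,0⟩,⟨(-120399914910234375000000000000000000000000),2,0⟩,⟨2313165565534078125000000000000000000000,3,0⟩,⟨482363173588278303000000000000000000000000,4,0⟩,⟨(-60065681717504166183000000000000000000000),5,0⟩,⟨(-687577267075992708821881500000000000000000),6,0⟩,⟨30685353948316563789913060500000000000000,7,0⟩,⟨407010931347292098253781785537500000000000,8,0⟩,⟨20467168525115227613265294284950500000000,9,0⟩,⟨(-89889477621451538598393382943793535500000),10,0⟩,⟨(-4429440778606767748080073773282312945000),11,0⟩,⟨6855136724666640645545998258228629204567,12,0⟩]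

/-- Certificate tree. -/
def tnl3 : OutT := (A (A (A (A (A (O l) (O l)) (A (O l) (O l))) (A (O l) (O l))) (A (O l) (A (O l) (O l)))) (A (A (A (O l) (A (O l) (O l))) (A (A (O l) (A (O l) (O l))) (A (A (A (O l) (O l)) (A (O l) (O l))) (A (A (O l) (A (O l) (O l))) (A (A (O l) (O l)) (A (O l) (O l))))))) (A (A (A (A (A (A (A (O l) (O l)) (A (O l) (O l))) (A (A (O l) (O l)) (O l))) (A (A (O l) (O l)) (A (O l) (O l)))) (A (A (A (O l) (O l)) (O l)) (A (O l) (O l)))) (A (A (A (O l) (O l)) (A (O l) (O l))) (A (O l) (O l)))) (A (A (A (O l) (O l)) (A (O l) (O l))) (A (A (O l) (O l)) (A (A (O l) (O l)) (A (O l) (A (O l) (A (O l) (A (O l) (O l)))))))))))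

theorem hnl3 (x : ℝ) (h0 : 0 ≤ x) (h1 : x ≤ 1) : evalIL lnl3 x 0 ≤ 0 :=
  uni_le 12 65536 lnl3 (by norm_num) (by norm_num) (by decide +kernel)
    (chkOut_sound (uniPb 12 65536 lnl3) tnl3 0 32768 0 32768 (by decide +kernel)) x h0 h1

theorem apx3 (u : ℝ) (h0 : -(417 / 1000 : ℝ) ≤ u) (h1 : u ≤ 2 * (417 / 1000 : ℝ)) :
    |((1 + u)⁻¹) ^ 3 - evalZ Ax.p3 (3 * u) / Ax.D3| ≤ Ax.e3 * |u| ^ Ax.m3 := by
  have hu : 0 < 1 + u := by norm_num at h0 ⊢; linarith
  refine apx_of_S 3 2 _ (S3 u) _ u hu ?_ ?_ ?_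
  · simp only [Ax, evalZ_cons, evalZ_nil, S3]
    push_cast
    ring
  · rcases le_total 0 u with hs | hs
    · have hx := hpu3 (u / (2 * (417 / 1000 : ℝ))) (by positivity) (by rw [div_le_one (by norm_num)]; exact h1)
      have e : evalIL lpu3 (u / (2 * (417 / 1000 : ℝ))) 0 = 2048000000000000000000000000000000000000 * (S3 u - Ax.e3 * (1 + u) ^ 3) := by
        simp only [lpu3, evalIL, List.map_cons, List.map_nil, List.sum_cons, List.sum_nil, S3, Ax]
        push_cast
        ring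
      rw [e] at hx
      have := cmul_nonpos (by norm_num) hx
      simp only [Ax] at this ⊢
      linarith
    · have hx := hnu3 (-u / (417 / 1000 : ℝ)) (by apply div_nonneg <;> [linarith; norm_num]) (by rw [div_le_one (by norm_num)]; linarith)
      have e : evalIL lnu3 (-u / (417 / 1000 : ℝ)) 0 = 8388608000000000000000000000000000000000000 * (S3 u - Ax.e3 * (1 + u) ^ 3) := by
        simp only [lnu3, evalIL, List.map_cons, List.map_nil, List.sum_cons, List.sum_nil, S3, Ax]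
        push_cast
        ring
      rw [e] at hx
      have := cmul_nonpos (by norm_num) hx
      simp only [Ax] at this ⊢
      linarith
  · rcases le_total 0 u with hs | hs
    · have hx := hpl3 (u / (2 * (417 / 1000 : ℝ))) (by positivity) (by rw [div_le_one (by norm_num)]; exact h1)
      have e : evalIL lpl3 (u / (2 * (417 / 1000 : ℝ))) 0 = 2048000000000000000000000000000000000000 * (-S3 u - Ax.e3 * (1 + u) ^ 3) := by
        simp only [lpl3, evalIL, List.map_cons, List.map_nil, List.sum_cons, List.sum_nil, S3, Ax]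
        push_cast
        ring
      rw [e] at hx
      have := cmul_nonpos (by norm_num) hx
      simp only [Ax] at this ⊢
      linarith
    · have hx := hnl3 (-u / (417 / 1000 : ℝ)) (by apply div_nonneg <;> [linarith; norm_num]) (by rw [div_le_one (by norm_num)]; linarith)
      have e : evalIL lnl3 (-u / (417 / 1000 : ℝ)) 0 = 8388608000000000000000000000000000000000000 * (-S3 u - Ax.e3 * (1 + u) ^ 3) := by
        simp only [lnl3, evalIL, List.map_cons, List.map_nil, List.sum_cons, List.sum_nil, S3, Ax]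
        push_cast
        ring
      rw [e] at hx
      have := cmul_nonpos (by norm_num) hx
      simp only [Ax] at this ⊢
      linarith

/-- The quotient polynomial for `j = 4`. -/
noncomputable def S4 (u : ℝ) : ℝ :=
  (-96581 / 16777216 : ℝ) * u ^ 0 + (-1850299 / 16777216 : ℝ) * u ^ 1 + (5348787 / 16777216 : ℝ) * u ^ 2 + (85376055 / 16777216 : ℝ) * u ^ 3 + (-7088093 / 16777216 : ℝ) * u ^ 4 + (-934349783 / 16777216 : ℝ) * u ^ 5 + (-87918863 / 4194304 : ℝ) * u ^ 6 + (3793370113 / 16777216 : ℝ) * u ^ 7 + (847368005 / 8388608 : ℝ) * u ^ 8 + (-3010866487 / 8388608 : ℝ) * u ^ 9 + (-3236937101 / 16777216 : ℝ) * u ^ 10 + (51816999 / 262144 : ℝ) * u ^ 11 + (1058018131 / 8388608 : ℝ) * u ^ 12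

/-- Certificate polynomial. -/
def lpu4 : List ITm := [⟨(-28742527008056640625000000000000000000),0,0⟩,⟨(-244927446807861328125000000000000000000),1,0⟩,⟨383398101377105712890625000000000000000,2,0⟩,⟨6006330990203035034179687500000000000000,3,0⟩,⟨(-426806040994714591369628906250000000000),4,0⟩,⟨(-46020337424474289558714843750000000000000),5,0⟩,⟨(-14446026743245599608826468750000000000000),6,0⟩,⟨129956387080784272465669869515625000000000,7,0⟩,⟨48421754219521220913202077700312500000000,8,0⟩,⟨(-143491443809906742802054441647154875000000),9,0⟩,⟨(-64328707142101654277556970508080793625000),10,0⟩,⟨54965330595039319746453840868679644272000,11,0⟩,⟨29249993226481499466523911522684890267091,12,0⟩]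

/-- Certificate tree. -/
def tpu4 : OutT := (A (A (A (O l) (A (O l) (O l))) (A (A (A (O l) (A (O l) (A (O l) (O l)))) (A (A (A (O l) (O l)) (A (O l) (O l))) (A (A (O l) (O l)) (O l)))) (A (A (A (O l) (O l)) (A (O l) (O l))) (A (O l) (O l))))) (A (A (A (A (O l) (O l)) (A (O l) (A (O l) (O l)))) (A (A (A (O l) (O l)) (A (O l) (O l))) (A (A (O l) (A (O l) (O l))) (A (A (O l) (O l)) (A (O l) (O l)))))) (A (A (A (A (A (A (O l) (O l)) (A (O l) (O l))) (A (A (O l) (O l)) (A (O l) (A (O l) (O l))))) (A (A (A (A (O l) (O l)) (A (O l) (O l))) (A (A (O l) (O l)) (A (O l) (O l)))) (A (A (A (A (O l) (O l)) (A (O l) (O l))) (A (A (O l) (O l)) (A (O l) (O l)))) (A (A (A (O l) (O l)) (A (O l) (O l))) (A (A (O l) (O l)) (A (O l) (O l))))))) (A (A (A (A (A (A (O l) (O l)) (O l)) (A (O l) (O l))) (A (A (O l) (O l)) (A (O l) (O l)))) (A (A (A (O l) (O l)) (A (O l) (O l))) (A (O l) (O l)))) (A (A (A (O l) (O l)) (A (O l) (O l))) (A (A (O l) (O l)) (A (O l) (O l))))))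 (A (A (A (A (O l) (O l)) (A (O l) (O l))) (A (A (O l) (O l)) (A (O l) (O l)))) (A (A (A (O l) (O l)) (A (O l) (O l))) (A (A (O l) (A (O l) (O l))) (A (A (O l) (O l)) (A (O l) (A (O l) (A (O l) (A (O l) (O l))))))))))))

theorem hpu4 (x : ℝ) (h0 : 0 ≤ x) (h1 : x ≤ 1) : evalIL lpu4 x 0 ≤ 0 :=
  uni_le 12 65536 lpu4 (by norm_num) (by norm_num) (by decide +kernel)
    (chkOut_sound (uniPb 12 65536 lpu4) tpu4 0 32768 0 32768 (by decide +kernel)) x h0 h1

/-- Certificate polynomial. -/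
def lpl4 : List ITm := [⟨(-5163181304931640625000000000000000000),0,0⟩,⟨131818003875732421875000000000000000000,1,0⟩,⟨(-524898014485198974609375000000000000000),2,0⟩,⟨(-6085004941891134887695312500000000000000),3,0⟩,⟨410402522067745771911621093750000000000,4,0⟩,⟨46020337424474289558714843750000000000000,5,0⟩,⟨14446026743245599608826468750000000000000,6,0⟩,⟨(-129956387080784272465669869515625000000000),7,0⟩,⟨(-48421754219521220913202077700312500000000),8,0⟩,⟨143491443809906742802054441647154875000000,9,0⟩,⟨64328707142101654277556970508080793625000,10,0⟩,⟨(-54965330595039319746453840868679644272000),11,0⟩,⟨(-29249993226481499466523911522684890267091),12,0⟩]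

/-- Certificate tree. -/
def tpl4 : OutT := (A (A (A (A (A (O l) (A (O l) (O l))) (A (A (O l) (O l)) (O l))) (A (A (O l) (O l)) (O l))) (A (A (O l) (O l)) (A (A (O l) (O l)) (A (O l) (A (O l) (O l)))))) (A (A (A (A (A (O l) (A (O l) (O l))) (A (A (O l) (O l)) (A (O l) (A (O l) (O l))))) (A (A (A (A (O l) (O l)) (A (O l) (O l))) (A (A (A (O l) (O l)) (A (O l) (O l))) (A (A (O l) (O l)) (A (O l) (O l))))) (A (A (A (A (O l) (O l)) (O l)) (A (O l) (O l))) (A (A (O l) (O l)) (A (O l) (O l)))))) (A (A (A (A (A (O l) (O l)) (O l)) (A (O l) (O l))) (A (A (O l) (O l)) (A (O l) (O l)))) (A (A (A (O l) (O l)) (A (O l) (O l))) (A (O l) (O l))))) (A (A (A (A (O l) (O l)) (A (O l) (O l))) (A (A (A (O l) (O l)) (A (O l) (O l))) (A (A (O l) (O l)) (A (O l) (O l))))) (A (A (A (A (O l) (O l)) (A (A (O l) (O l)) (A (O l) (O l)))) (A (A (A (O l) (O l)) (A (O l) (O l))) (A (A (A (O l) (O l)) (A (O l) (O l))) (A (A (O l) (O l)) (A (O l) (O l)))))) (A (A (A (A (A (A (O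 l) (O l)) (A (O l) (O l))) (A (A (O l) (O l)) (A (O l) (O l)))) (A (A (A (O l) (O l)) (A (O l) (O l))) (A (A (O l) (O l)) (A (O l) (O l))))) (A (A (A (A (O l) (O l)) (A (O l) (O l))) (A (A (O l) (O l)) (A (O l) (O l)))) (A (A (O l) (O l)) (A (O l) (O l))))) (A (A (A (A (O l) (O l)) (O l)) (A (O l) (O l))) (A (A (O l) (O l)) (A (O l) (O l)))))))))

theorem hpl4 (x : ℝ) (h0 : 0 ≤ x) (h1 : x ≤ 1) : evalIL lpl4 x 0 ≤ 0 :=
  uni_le 12 65536 lpl4 (by norm_num) (by norm_num) (by decide +kernel)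
    (chkOut_sound (uniPb 12 65536 lpl4) tpl4 0 32768 0 32768 (by decide +kernel)) x h0 h1

/-- Certificate polynomial. -/
def lnu4 : List ITm := [⟨(-117729390625000000000000000000000000000000),0,0⟩,⟨501611411062500000000000000000000000000000,1,0⟩,⟨392599655810156250000000000000000000000000,2,0⟩,⟨(-3075241466983953937500000000000000000000000),3,0⟩,⟨(-109262346494646935390625000000000000000000),4,0⟩,⟨5890603190332709063515500000000000000000000,5,0⟩,⟨(-924545711567718374964894000000000000000000),6,0⟩,⟨(-4158604386585096718901435824500000000000000),7,0⟩,⟨774748067512339534611233243205000000000000,8,0⟩,⟨1147931550479253942416435533177239000000000,9,0⟩,⟨(-257314828568406617110227882032323174500000),10,0⟩,⟨(-109930661190078639492907681737359288544000),11,0⟩,⟨29249993226481499466523911522684890267091,12,0⟩]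

/-- Certificate tree. -/
def tnu4 : OutT := (A (A (A (O l) (A (O l) (O l))) (A (A (A (O l) (O l)) (A (A (O l) (O l)) (A (O l) (O l)))) (A (A (A (O l) (O l)) (O l)) (A (O l) (O l))))) (A (A (A (A (O l) (O l)) (A (O l) (O l))) (A (A (O l) (O l)) (A (O l) (O l)))) (A (A (A (O l) (A (O l) (O l))) (A (A (O l) (O l)) (A (O l) (A (O l) (O l))))) (A (A (A (A (O l) (O l)) (A (A (O l) (O l)) (A (O l) (O l)))) (A (A (A (O l) (A (O l) (O l))) (A (A (O l) (O l)) (A (O l) (O l)))) (A (A (A (O l) (O l)) (A (O l) (O l))) (A (A (O l) (O l)) (A (O l) (O l)))))) (A (A (A (A (A (O l) (O l)) (A (O l) (O l))) (A (O l) (O l))) (A (A (O l) (O l)) (A (O l) (O l)))) (A (A (O l) (O l)) (A (O l) (O l))))))))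

theorem hnu4 (x : ℝ) (h0 : 0 ≤ x) (h1 : x ≤ 1) : evalIL lnu4 x 0 ≤ 0 :=
  uni_le 12 65536 lnu4 (by norm_num) (by norm_num) (by decide +kernel)
    (chkOut_sound (uniPb 12 65536 lnu4) tnu4 0 32768 0 32768 (by decide +kernel)) x h0 h1

/-- Certificate polynomial. -/
def lnl4 : List ITm := [⟨(-21148390625000000000000000000000000000000),0,0⟩,⟨(-269963271937500000000000000000000000000000),1,0⟩,⟨(-537495566832843750000000000000000000000000),2,0⟩,⟨3115522530248261062500000000000000000000000,3,0⟩,⟨105063045649342917609375000000000000000000,4,0⟩,⟨(-5890603190332709063515500000000000000000000),5,0⟩,⟨924545711567718374964894000000000000000000,6,0⟩,⟨4158604386585096718901435824500000000000000,7,0⟩,⟨(-774748067512339534611233243205000000000000),8,0⟩,⟨(-1147931550479253942416435533177239000000000),9,0⟩,⟨257314828568406617110227882032323174500000,10,0⟩,⟨109930661190078639492907681737359288544000,11,0⟩,⟨(-29249993226481499466523911522684890267091),12,0⟩]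

/-- Certificate tree. -/
def tnl4 : OutT := (A (A (A (O l) (O l)) (A (O l) (A (O l) (O l)))) (A (A (A (A (O l) (O l)) (A (O l) (A (O l) (O l)))) (A (A (A (O l) (O l)) (A (A (O l) (O l)) (A (O l) (A (O l) (O l))))) (A (A (A (A (O l) (O l)) (A (O l) (O l))) (A (A (O l) (O l)) (A (O l) (O l)))) (A (A (A (O l) (O l)) (A (O l) (O l))) (A (O l) (O l)))))) (A (A (A (A (A (O l) (O l)) (A (O l) (O l))) (A (A (O l) (O l)) (O l))) (A (A (O l) (O l)) (A (O l) (O l)))) (A (A (A (O l) (O l)) (A (O l) (O l))) (A (A (O l) (O l)) (A (A (O l) (O l)) (A (O l) (A (O l) (A (O l) (A (O l) (O l)))))))))))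

theorem hnl4 (x : ℝ) (h0 : 0 ≤ x) (h1 : x ≤ 1) : evalIL lnl4 x 0 ≤ 0 :=
  uni_le 12 65536 lnl4 (by norm_num) (by norm_num) (by decide +kernel)
    (chkOut_sound (uniPb 12 65536 lnl4) tnl4 0 32768 0 32768 (by decide +kernel)) x h0 h1

theorem apx4 (u : ℝ) (h0 : -(417 / 1000 : ℝ) ≤ u) (h1 : u ≤ 2 * (417 / 1000 : ℝ)) :
    |((1 + u)⁻¹) ^ 4 - evalZ Ax.p4 (3 * u) / Ax.D4| ≤ Ax.e4 * |u| ^ Ax.m4 := by
  have hu : 0 < 1 + u := by norm_num at h0 ⊢; linarith
  refine apx_of_S 4 2 _ (S4 u) _ u hu ?_ ?_ ?_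
  · simp only [Ax, evalZ_cons, evalZ_nil, S4]
    push_cast
    ring
  · rcases le_total 0 u with hs | hs
    · have hx := hpu4 (u / (2 * (417 / 1000 : ℝ))) (by positivity) (by rw [div_le_one (by norm_num)]; exact h1)
      have e : evalIL lpu4 (u / (2 * (417 / 1000 : ℝ))) 0 = 2048000000000000000000000000000000000000 * (S4 u - Ax.e4 * (1 + u) ^ 4) := by
        simp only [lpu4, evalIL, List.map_cons, List.map_nil, List.sum_cons, List.sum_nil, S4, Ax]
        push_cast
        ring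
      rw [e] at hx
      have := cmul_nonpos (by norm_num) hx
      simp only [Ax] at this ⊢
      linarith
    · have hx := hnu4 (-u / (417 / 1000 : ℝ)) (by apply div_nonneg <;> [linarith; norm_num]) (by rw [div_le_one (by norm_num)]; linarith)
      have e : evalIL lnu4 (-u / (417 / 1000 : ℝ)) 0 = 8388608000000000000000000000000000000000000 * (S4 u - Ax.e4 * (1 + u) ^ 4) := by
        simp only [lnu4, evalIL, List.map_cons, List.map_nil, List.sum_cons, List.sum_nil, S4, Ax]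
        push_cast
        ring
      rw [e] at hx
      have := cmul_nonpos (by norm_num) hx
      simp only [Ax] at this ⊢
      linarith
  · rcases le_total 0 u with hs | hs
    · have hx := hpl4 (u / (2 * (417 / 1000 : ℝ))) (by positivity) (by rw [div_le_one (by norm_num)]; exact h1)
      have e : evalIL lpl4 (u / (2 * (417 / 1000 : ℝ))) 0 = 2048000000000000000000000000000000000000 * (-S4 u - Ax.e4 * (1 + u) ^ 4) := by
        simp only [lpl4, evalIL, List.map_cons, List.map_nil, List.sum_cons, List.sum_nil, S4, Ax]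
        push_cast
        ring
      rw [e] at hx
      have := cmul_nonpos (by norm_num) hx
      simp only [Ax] at this ⊢
      linarith
    · have hx := hnl4 (-u / (417 / 1000 : ℝ)) (by apply div_nonneg <;> [linarith; norm_num]) (by rw [div_le_one (by norm_num)]; linarith)
      have e : evalIL lnl4 (-u / (417 / 1000 : ℝ)) 0 = 8388608000000000000000000000000000000000000 * (-S4 u - Ax.e4 * (1 + u) ^ 4) := by
        simp only [lnl4, evalIL, List.map_cons, List.map_nil, List.sum_cons, List.sum_nil, S4, Ax]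
        push_cast
        ring
      rw [e] at hx
      have := cmul_nonpos (by norm_num) hx
      simp only [Ax] at this ⊢
      linarith

/-- The quotient polynomial for `j = 5`. -/
noncomputable def S5 (u : ℝ) : ℝ :=
  (-196477 / 8388608 : ℝ) * u ^ 0 + (-7392377 / 16777216 : ℝ) * u ^ 1 + (16544851 / 16777216 : ℝ) * u ^ 2 + (87922041 / 4194304 : ℝ) * u ^ 3 + (121318317 / 8388608 : ℝ) * u ^ 4 + (-3695735869 / 16777216 : ℝ) * u ^ 5 + (-2281399683 / 8388608 : ℝ) * u ^ 6 + (13673532447 / 16777216 : ℝ) * u ^ 7 + (2501265689 / 2097152 : ℝ) * u ^ 8 + (-8796079753 / 8388608 : ℝ) * u ^ 9 + (-34318844425 / 16777216 : ℝ) * u ^ 10 + (1294282221 / 16777216 : ℝ) * u ^ 11 + (5089158909 / 4194304 : ℝ) * u ^ 12 + (967058503 / 2097152 : ℝ) * u ^ 13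

/-- Certificate polynomial. -/
def lpu5 : List ITm := [⟨(-14255881309509277343750000000000000000000),0,0⟩,⟨(-128517829473495483398437500000000000000000),1,0⟩,⟨118144081961952209472656250000000000000000,2,0⟩,⟨3065062404361781936645507812500000000000000,3,0⟩,⟨1771205257141416092971801757812500000000000,4,0⟩,⟨(-22756991883718467002040252685546875000000000),5,0⟩,⟨(-23428675960477640431611380859375000000000000),6,0⟩,⟨58554887293830329171159420373046875000000000,7,0⟩,⟨71465804535822310093937051632781250000000000,8,0⟩,⟨(-52400288632636481016906743737000640625000000),9,0⟩,⟨(-85253699082890097247467855567899169140625000),10,0⟩,⟨2681486481778264622005119899874371890406250,11,0⟩,⟨35173750632241759223155248458402733389087250,12,0⟩,⟨11148628977705750009163810358819820563023911,13,0⟩]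

/-- Certificate tree. -/
def tpu5 : OutT := (A (A (A (O l) (A (O l) (O l))) (A (A (A (O l) (A (O l) (A (O l) (O l)))) (A (A (A (O l) (O l)) (A (O l) (O l))) (A (A (O l) (O l)) (O l)))) (A (A (A (O l) (O l)) (A (O l) (O l))) (A (O l) (O l))))) (A (A (A (A (O l) (O l)) (A (O l) (O l))) (A (A (A (O l) (O l)) (A (O l) (O l))) (A (A (O l) (A (O l) (O l))) (A (A (O l) (O l)) (A (O l) (O l)))))) (A (A (A (A (A (A (O l) (O l)) (A (O l) (O l))) (A (A (O l) (O l)) (A (O l) (O l)))) (A (A (A (A (O l) (O l)) (A (O l) (O l))) (A (A (O l) (O l)) (A (O l) (O l)))) (A (A (A (A (O l) (O l)) (A (O l) (O l))) (A (A (O l) (O l)) (A (O l) (O l)))) (A (A (A (O l) (O l)) (A (O l) (O l))) (A (A (O l) (O l)) (O l)))))) (A (A (A (A (A (O l) (O l)) (A (O l) (O l))) (A (A (O l) (O l)) (A (O l) (O l)))) (A (A (A (O l) (O l)) (O l)) (A (O l) (O l)))) (A (A (A (O l) (O l)) (A (O l) (O l))) (A (A (O l) (O l)) (O l))))) (A (A (A (A (O l) (O l)) (A (O l) (O l))) (A (A (O l) (O l))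 (A (O l) (O l)))) (A (A (A (O l) (O l)) (A (O l) (O l))) (A (A (O l) (O l)) (A (A (O l) (O l)) (A (O l) (A (O l) (A (O l) (O l)))))))))))

theorem hpu5 (x : ℝ) (h0 : 0 ≤ x) (h1 : x ≤ 1) : evalIL lpu5 x 0 ≤ 0 :=
  uni_le 13 65536 lpu5 (by norm_num) (by norm_num) (by decide +kernel)
    (chkOut_sound (uniPb 13 65536 lpu5) tpu5 0 32768 0 32768 (by decide +kernel)) x h0 h1

/-- Certificate polynomial. -/
def lpl5 : List ITm := [⟨(-2263876914978027343750000000000000000000),0,0⟩,⟨59630437677383422851562500000000000000000,1,0⟩,⟨(-233048251477867126464843750000000000000000),2,0⟩,⟨(-3160892481738054977416992187500000000000000),3,0⟩,⟨(-1811166399407321950973510742187500000000000),4,0⟩,⟨22750326365188513904925567626953125000000000,5,0⟩,⟨23428675960477640431611380859375000000000000,6,0⟩,⟨(-58554887293830329171159420373046875000000000),7,0⟩,⟨(-71465804535822310093937051632781250000000000),8,0⟩,⟨52400288632636481016906743737000640625000000,9,0⟩,⟨85253699082890097247467855567899169140625000,10,0⟩,⟨(-2681486481778264622005119899874371890406250),11,0⟩,⟨(-35173750632241759223155248458402733389087250),12,0⟩,⟨(-11148628977705750009163810358819820563023911),13,0⟩]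

/-- Certificate tree. -/
def tpl5 : OutT := (A (A (A (A (A (O l) (A (O l) (O l))) (A (A (O l) (O l)) (O l))) (A (A (O l) (O l)) (O l))) (A (A (O l) (O l)) (A (A (O l) (O l)) (A (O l) (A (O l) (O l)))))) (A (A (A (A (A (O l) (A (O l) (O l))) (A (A (O l) (O l)) (A (O l) (A (O l) (O l))))) (A (A (A (A (O l) (O l)) (A (O l) (O l))) (A (A (A (O l) (O l)) (A (O l) (O l))) (A (A (O l) (O l)) (A (O l) (O l))))) (A (A (A (O l) (O l)) (A (O l) (O l))) (A (A (O l) (O l)) (A (O l) (O l)))))) (A (A (A (A (O l) (O l)) (A (O l) (O l))) (A (A (O l) (O l)) (A (O l) (O l)))) (A (A (A (O l) (O l)) (O l)) (A (O l) (O l))))) (A (A (A (A (O l) (O l)) (A (O l) (O l))) (A (A (O l) (A (O l) (O l))) (A (A (O l) (O l)) (A (O l) (O l))))) (A (A (A (A (O l) (O l)) (A (O l) (A (O l) (O l)))) (A (A (A (O l) (O l)) (A (O l) (O l))) (A (A (O l) (A (O l) (O l))) (A (A (O l) (O l)) (A (O l) (O l)))))) (A (A (A (A (A (O l) (A (O l) (O l))) (A (A (O l) (O l)) (A (O l) (O l)))) (A (A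 (A (O l) (O l)) (A (O l) (O l))) (A (A (O l) (O l)) (A (O l) (O l))))) (A (A (A (A (O l) (O l)) (A (O l) (O l))) (A (A (O l) (O l)) (O l))) (A (A (O l) (O l)) (A (O l) (O l))))) (A (A (A (A (O l) (O l)) (O l)) (A (O l) (O l))) (A (A (O l) (O l)) (O l))))))))

theorem hpl5 (x : ℝ) (h0 : 0 ≤ x) (h1 : x ≤ 1) : evalIL lpl5 x 0 ≤ 0 :=
  uni_le 13 65536 lpl5 (by norm_num) (by norm_num) (by decide +kernel)
    (chkOut_sound (uniPb 13 65536 lpl5) tpl5 0 32768 0 32768 (by decide +kernel)) x h0 h1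

/-- Certificate polynomial. -/
def lnu5 : List ITm := [⟨(-116784179687500000000000000000000000000000000),0,0⟩,⟨526409029523437500000000000000000000000000000,1,0⟩,⟨241959079858078125000000000000000000000000000,2,0⟩,⟨(-3138623902066464703125000000000000000000000000),3,0⟩,⟨906857091656405039601562500000000000000000000,4,0⟩,⟨5825789922231927552522304687500000000000000000,5,0⟩,⟨(-2998870522941137975246256750000000000000000000),6,0⟩,⟨(-3747512786805141066954202903875000000000000000),7,0⟩,⟨2286905745146313923005985652249000000000000000,8,0⟩,⟨838404618122183696270507899792010250000000000,9,0⟩,⟨(-682029592663120777979742844543193353125000000),10,0⟩,⟨(-10725945927113058488020479599497487561625000),11,0⟩,⟨70347501264483518446310496916805466778174500,12,0⟩,⟨(-11148628977705750009163810358819820563023911),13,0⟩]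

/-- Certificate tree. -/
def tnu5 : OutT := (A (A (A (O l) (A (O l) (O l))) (A (A (A (O l) (O l)) (A (A (O l) (O l)) (A (O l) (O l)))) (A (A (A (O l) (O l)) (A (O l) (O l))) (A (O l) (O l))))) (A (A (A (A (O l) (O l)) (A (O l) (O l))) (A (A (O l) (O l)) (A (O l) (A (O l) (O l))))) (A (A (A (A (O l) (O l)) (A (O l) (O l))) (A (A (O l) (A (O l) (O l))) (A (A (O l) (O l)) (A (O l) (O l))))) (A (A (A (A (A (O l) (O l)) (A (O l) (O l))) (A (A (O l) (O l)) (A (O l) (A (O l) (O l))))) (A (A (A (A (O l) (O l)) (A (O l) (O l))) (A (A (O l) (O l)) (A (A (O l) (O l)) (A (O l) (O l))))) (A (A (A (A (O l) (O l)) (A (O l) (O l))) (A (A (O l) (O l)) (A (O l) (O l)))) (A (A (A (O l) (O l)) (A (O l) (O l))) (A (A (O l) (O l)) (A (O l) (O l))))))) (A (A (A (A (A (O l) (O l)) (A (O l) (O l))) (A (A (O l) (O l)) (A (O l) (O l)))) (A (A (O l) (O l)) (A (O l) (O l)))) (A (A (A (O l) (O l)) (A (O l) (O l))) (A (O l) (O l))))))))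

theorem hnu5 (x : ℝ) (h0 : 0 ≤ x) (h1 : x ≤ 1) : evalIL lnu5 x 0 ≤ 0 :=
  uni_le 13 65536 lnu5 (by norm_num) (by norm_num) (by decide +kernel)
    (chkOut_sound (uniPb 13 65536 lnu5) tnu5 0 32768 0 32768 (by decide +kernel)) x h0 h1

/-- Certificate polynomial. -/
def lnl5 : List ITm := [⟨(-18545679687500000000000000000000000000000000),0,0⟩,⟨(-244246272726562500000000000000000000000000000),1,0⟩,⟨(-477282819026671875000000000000000000000000000),2,0⟩,⟨3236753901299768296875000000000000000000000000,3,0⟩,⟨(-927317196496548838898437500000000000000000000),4,0⟩,⟨(-5824083549488259559660945312500000000000000000),5,0⟩,⟨2998870522941137975246256750000000000000000000,6,0⟩,⟨3747512786805141066954202903875000000000000000,7,0⟩,⟨(-2286905745146313923005985652249000000000000000),8,0⟩,⟨(-838404618122183696270507899792010250000000000),9,0⟩,⟨682029592663120777979742844543193353125000000,10,0⟩,⟨10725945927113058488020479599497487561625000,11,0⟩,⟨(-70347501264483518446310496916805466778174500),12,0⟩,⟨11148628977705750009163810358819820563023911,13,0⟩]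

/-- Certificate tree. -/
def tnl5 : OutT := (A (A (A (O l) (O l)) (A (O l) (A (O l) (O l)))) (A (A (A (A (O l) (O l)) (A (O l) (A (O l) (O l)))) (A (A (A (O l) (A (O l) (O l))) (A (A (O l) (O l)) (A (A (O l) (O l)) (A (O l) (O l))))) (A (A (A (A (O l) (O l)) (A (O l) (O l))) (A (A (A (O l) (O l)) (A (O l) (O l))) (A (A (O l) (O l)) (A (O l) (O l))))) (A (A (A (A (O l) (O l)) (O l)) (A (O l) (O l))) (A (A (O l) (O l)) (A (O l) (O l))))))) (A (A (A (A (A (A (O l) (O l)) (O l)) (A (O l) (O l))) (A (A (O l) (O l)) (A (O l) (O l)))) (A (A (A (O l) (O l)) (A (O l) (O l))) (A (A (O l) (O l)) (A (O l) (O l))))) (A (A (A (A (O l) (O l)) (A (O l) (O l))) (A (A (O l) (O l)) (A (O l) (O l)))) (A (A (A (O l) (O l)) (A (O l) (O l))) (A (A (O l) (A (O l) (O l))) (A (A (O l) (O l)) (A (O l) (A (O l) (A (O l) (O l)))))))))))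

theorem hnl5 (x : ℝ) (h0 : 0 ≤ x) (h1 : x ≤ 1) : evalIL lnl5 x 0 ≤ 0 :=
  uni_le 13 65536 lnl5 (by norm_num) (by norm_num) (by decide +kernel)
    (chkOut_sound (uniPb 13 65536 lnl5) tnl5 0 32768 0 32768 (by decide +kernel)) x h0 h1

theorem apx5 (u : ℝ) (h0 : -(417 / 1000 : ℝ) ≤ u) (h1 : u ≤ 2 * (417 / 1000 : ℝ)) :
    |((1 + u)⁻¹) ^ 5 - evalZ Ax.p5 (3 * u) / Ax.D5| ≤ Ax.e5 * |u| ^ Ax.m5 := by
  have hu : 0 < 1 + u := by norm_num at h0 ⊢; linarith
  refine apx_of_S 5 2 _ (S5 u) _ u hu ?_ ?_ ?_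
  · simp only [Ax, evalZ_cons, evalZ_nil, S5]
    push_cast
    ring
  · rcases le_total 0 u with hs | hs
    · have hx := hpu5 (u / (2 * (417 / 1000 : ℝ))) (by positivity) (by rw [div_le_one (by norm_num)]; exact h1)
      have e : evalIL lpu5 (u / (2 * (417 / 1000 : ℝ))) 0 = 256000000000000000000000000000000000000000 * (S5 u - Ax.e5 * (1 + u) ^ 5) := by
        simp only [lpu5, evalIL, List.map_cons, List.map_nil, List.sum_cons, List.sum_nil, S5, Ax]
        push_cast
        ring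
      rw [e] at hx
      have := cmul_nonpos (by norm_num) hx
      simp only [Ax] at this ⊢
      linarith
    · have hx := hnu5 (-u / (417 / 1000 : ℝ)) (by apply div_nonneg <;> [linarith; norm_num]) (by rw [div_le_one (by norm_num)]; linarith)
      have e : evalIL lnu5 (-u / (417 / 1000 : ℝ)) 0 = 2097152000000000000000000000000000000000000000 * (S5 u - Ax.e5 * (1 + u) ^ 5) := by
        simp only [lnu5, evalIL, List.map_cons, List.map_nil, List.sum_cons, List.sum_nil, S5, Ax]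
        push_cast
        ring
      rw [e] at hx
      have := cmul_nonpos (by norm_num) hx
      simp only [Ax] at this ⊢
      linarith
  · rcases le_total 0 u with hs | hs
    · have hx := hpl5 (u / (2 * (417 / 1000 : ℝ))) (by positivity) (by rw [div_le_one (by norm_num)]; exact h1)
      have e : evalIL lpl5 (u / (2 * (417 / 1000 : ℝ))) 0 = 256000000000000000000000000000000000000000 * (-S5 u - Ax.e5 * (1 + u) ^ 5) := by
        simp only [lpl5, evalIL, List.map_cons, List.map_nil, List.sum_cons, List.sum_nil, S5, Ax]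
        push_cast
        ring
      rw [e] at hx
      have := cmul_nonpos (by norm_num) hx
      simp only [Ax] at this ⊢
      linarith
    · have hx := hnl5 (-u / (417 / 1000 : ℝ)) (by apply div_nonneg <;> [linarith; norm_num]) (by rw [div_le_one (by norm_num)]; linarith)
      have e : evalIL lnl5 (-u / (417 / 1000 : ℝ)) 0 = 2097152000000000000000000000000000000000000000 * (-S5 u - Ax.e5 * (1 + u) ^ 5) := by
        simp only [lnl5, evalIL, List.map_cons, List.map_nil, List.sum_cons, List.sum_nil, S5, Ax]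
        push_cast
        ring
      rw [e] at hx
      have := cmul_nonpos (by norm_num) hx
      simp only [Ax] at this ⊢
      linarith

theorem hAx : Ax.OK (-(417 / 1000 : ℝ)) (2 * (417 / 1000 : ℝ)) where
  e10 := by simp only [Ax]; norm_num
  e20 := by simp only [Ax]; norm_num
  e30 := by simp only [Ax]; norm_num
  e40 := by simp only [Ax]; norm_num
  e50 := by simp only [Ax]; norm_num
  h1 := fun u a b => by simpa using apx1 u a b
  h2 := apx2
  h3 := apx3
  h4 := apx4
  h5 := apx5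

end Vale.Agent.P154.D4.K1
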