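import Vale.Agent.P154.D4.K1.Data
import Vale.Agent.P154.Check2

namespace Vale.Agent.P154.D4.K1

open Cert

/-- Chart (0, 0). -/
def P00 : Pb := chartPb false false Nd w G []

/-- Chart (0, 1). -/
def P01 : Pb := chartPb false true Nd w G []

/-- Chart (1, 0). -/
def P10 : Pb := chartPb true false Nd w G []

/-- Chart (1, 1). -/
def P11 : Pb := chartPb true true Nd w G []

/-- The offset. -/
def KK : ℕ := 6176826577981891429214335532193521333299458305790469920559733826520701280761576748411876944013584121557222835214746457256769065471978560695404461668113357846725995613908885539687100455996497080726311269484641878313049544782247701984195048695347886851221010025401573777842206256568313675909006576801941109109732291903488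

end Vale.Agent.P154.D4.K1
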