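import Vale.Agent.P154.D4.K1.Charts

set_option maxRecDepth 100000

namespace Vale.Agent.P154.D4.K1

open Cert InT OutT

/-- Certificate tree. -/
def tr00_r111011 : OutT :=
(B (A (B s (A (B s (A s s)) s)) (B s (A s s))) (A (B (A (B (A (O (c l (c l (c l (d k (d (d k l) (c l (d l (c l l))))))))) (B s (O (c l (c l (d (c k k) (c l (d l l)))))))) (A (O (c l (c l (d (d k (c k k)) (c l (d (d k l) (d (c l l) (c l l)))))))) (O (c l (c l (c l (d k (d (d k l) (c l (d l (c l l))))))))))) (B (A (B s (O (c l (c l (d (c k k) (c l (d l (c l l)))))))) s) (A (B (O (c l (c l (d l (c l (d l (c l l))))))) (O (c l (c l (d l (c l (d l l))))))) (B (O (c l (c l (d (c k k) (c l (d l (c l l))))))) (O (c l (c l (d l (c l (d l (c l l))))))))))) (A (B (A (O (c l (c l (d (c k k) (c l (d l (d l (c l l)))))))) (O (c l (c l (d (c k k) (c l (d (c k k) (c l (d l (c l l)))))))))) (A (O (c l (c l (d l (c l (d l (c l (c l l)))))))) (O (c l (c l (d l (c l (d l (d l (c l l)))))))))) (B (A (B (O (c l (c l (d l (c l (d l l))))))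 (O (c l (c l (d l (c l (d l l))))))) (B (O (c l (c l (d l (c l (d l l)))))) (O (c l (c l (d l (c l (d l l)))))))) (A (B (O (c l (c l (d l (c l (d l l)))))) (O (c l (c l (d l (c l (c l l))))))) (B (O (c l (c l (d l (c l (d l l)))))) (O (c l (c l (d l (c l (d l l))))))))))) (B (A (B (A s s) (A (B (O (c l (c l (d (c k k) (c l (d l (d l l))))))) (O (c l (c l (d l (c l (d l (c l l)))))))) (B s (O (c l (c l (d l (c l (d l (d l (c l l))))))))))) (B s (A (B s (O (c l (c l (d (c k k) (c l (d (c k k) (d l (c l l))))))))) (B s (A s s))))) (A (B (A (B (O (c l (c l (d l (c l (d l (c l l))))))) (O (c l (c l (d l (c l (d l (c l l)))))))) (B (O (c l (c l (d l (c l (d l (d l l))))))) (O (c l (c l (d l (c l (d l (c l l))))))))) (A (B (O (c l (c l (d l (c l (d l l)))))) (O (c l (c l (d l (c l (d l l))))))) (B (O (c l (c l (d l (c l (d l (c l l))))))) (O (c l (c l (d l (c l (d l (c l l)))))))))) (B (A (B (O (c l (c l (d l (c l (d l (d l (c l l)))))))) (O (c l (c l (d l (c l (d l (d l (c l l))))))))) (B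 (A (O (c l (c l (d l l)))) (O (c l (c l (d l l))))) (A (O (c l (c l (d l l)))) (O (c l (c l (d l l))))))) (A (B (O (c l (c l (d l (c l (d l (d l (c l l)))))))) (O (c l (c l (d l (c l (d l (c l l)))))))) (B (A (O (c l (c l (c l l)))) (O (c l (c l (c l l))))) (O (c l (c l (d l (c l (d l (d l (c l l)))))))))))))))

theorem s00_r111011 : Sound P00 53248 2048 49152 8192 :=
  chkOut2_sound P00 KK tr00_r111011 53248 2048 49152 8192 (by decide +kernel)

end Vale.Agent.P154.D4.K1
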