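import Vale.Agent.P154.D4.K1.Charts

set_option maxRecDepth 100000

namespace Vale.Agent.P154.D4.K1

open Cert InT OutT

/-- Certificate tree. -/
def tr01_r01 : OutT :=
(A (B (A (B (O (c (c (c (c (c l l) (c l l)) (c (c l l) (c l l))) (c (c (c l l) l) (c (c l l) (c l l)))) (c (c (d (c l l) (c l k)) k) k))) (O (c (c (c (c (c (c l l) (c l l)) (c l l)) (c (c l l) (c l l))) (c (c l l) (c (c l l) (c l l)))) (c (c (d (c l l) (c l k)) k) k)))) (B (O (c (c (c (c l (c l l)) (c l l)) (c (c l l) (c l (c l l)))) (c (c (d (c l l) (c l k)) k) k))) (O (c (c (c (c (c (c l l) (c l l)) (c l l)) (c l l)) (c (c l l) (c l (c l l)))) (c (c (d (c l l) (c l k)) k) k))))) (A (B (A (O (c (c (c (c (c l l) l) (c l l)) (c (c l l) (c l (c l l)))) (c (c (d (c l l) (c l k)) k) k))) (O (c (c (c (c (c l l) l) (c l l)) (c (c l l) (c l l))) (c (c (d (c l l) (c l k)) k) k)))) (A (O (c (c (c (c (c l l) (c l l)) (c l l)) (c (c l l) (c l l))) (c (c (d (c l l) (c l k))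 k) k))) (O (c (c (c (c (c l l) (c l l)) (c l l)) (c (c l l) (c l l))) (c (c (d l (c l k)) k) k))))) (B (A (O (c (c (c (c (c l l) l) (c l l)) (c (c l l) (c l l))) (c (c (c (c l l) (c l k)) k) k))) (O (c (c (c (c (c l l) l) (c l l)) (c (c l l) (c l l))) (c (c (c l (c l k)) k) k)))) (A (O (c (c (c (c (c l l) (c l l)) (c l l)) (c (c l l) (c l l))) (c (c (c l (c l k)) k) k))) (O (c (c (c (c (c l l) (c l l)) (c l l)) (c (c l l) (c l l))) (c (c (c l (c l k)) k) k))))))) (B (A (B (O (c (c (c (c l l) (c l l)) (c (c l l) (c l l))) (c (c (c (c l l) (d l k)) k) k))) (A (O (c (c (c (c l l) (c l l)) (c (c l l) (c l l))) (c (c (c l (c l k)) k) k))) (O (c (c (c (c l l) (c l l)) (c l (c l l))) (c (c (c l (c l k)) k) k))))) (B (O (c (c (c (c l l) (c l l)) (c (c l l) (c l l))) (c (c (c (c l l) (d l k)) k) k))) (A (O (c (c (c (c l l) (c l l)) (c l (c l l))) (c (c (c l (c l k)) k) k))) (O (c (c (c (c l l) (c l l)) (c l (c l l))) (c (c (c l (c l k))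 k) k)))))) (A (B (A (O (c (c (c (c (c l l) l) (c l l)) (c (c l l) (c l l))) (c (c (c l (c l k)) k) k))) (O (c (c (c (c (c l l) l) (c l l)) (c (c l l) (c l l))) (c (c (c l (c l k)) k) k)))) (A (O (c (c (c (c (c (c (c l l) l) (c l l)) (c l l)) (c l l)) (c (c l l) (c l l))) (c (c (c l l) k) k))) (B (O (c (c (c (c l l) (c l l)) (c l l)) (c (c (c l l) k) k))) (O (c (c (c (c l l) (c l l)) (c l l)) (c (c (c l l) k) k)))))) (B (A (O (c (c (c (c l l) (c l l)) (c l (c l l))) (c (c (c l (c l k)) k) k))) (O (c (c (c (c (c l l) l) (c l l)) (c l (c l l))) (c (c (c l (c l k)) k) k)))) (A (B (O (c (c (c (c l l) (c l l)) (c l l)) (c (c (c l l) k) k))) (O (c (c (c (c l l) l) (c l l)) (c (c (c l l) k) k)))) (B (O (c (c (c (c l l) (c l l)) (c l l)) (c (c (c l l) k) k))) (O (c (c (c (c l l) l) (c l l)) (c (c (c l l) k) k)))))))))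

theorem s01_r01 : Sound P01 16384 8192 0 32768 :=
  chkOut2_sound P01 KK tr01_r01 16384 8192 0 32768 (by decide +kernel)

end Vale.Agent.P154.D4.K1
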