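import Vale.Agent.P154.D4.K1.Charts

set_option maxRecDepth 100000

namespace Vale.Agent.P154.D4.K1

open Cert InT OutT

/-- Certificate tree. -/
def tr10_r1 : OutT :=
(A (B (A (B (A (B (A (O (c (c l (c l l)) (c (d (c l l) (c l l)) (d (c k k) (c (d l l) (d (d k l) (c l l))))))) (O (c (c l (c l l)) (c (d (c l l) (c l l)) (d (c k k) (c (d l l) (d (d k (d (c k k) l)) (d (c l l) l)))))))) (A (O (c (c l (c l l)) (c (d (c l l) (c l l)) (d (c k k) (c (d l l) (d (d k (c k k)) (c l l))))))) (O (c (c l (c l l)) (c (d (c l l) (c l l)) (d (c k k) (c (d l l) (d (d k (d (c k k) (c k k))) (d (c l l) l))))))))) (B (A (O (c (c l (c l l)) (c (d (d l (c l l)) (c l (c l l))) (d (c k k) (c (d (d l l) (c l l)) (d (c k k) (c (c l l) (d (d k l) l)))))))) s) (A (O (c (c l (c l l)) (c (d (d l l) (c l l)) (d (c k k) (c (d (d l l) (c l l)) (d (c k k) (c (c l l) (d (d k l) l)))))))) s))) (A (B (A (O (c (c l (c l l)) (c (d (c l l) (c l l)) (d (c k k) (c (d l l) (d (d k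 (c k k)) (c l l))))))) (O (c (c l (c l l)) (c (d (c l l) (c l l)) (d (c k k) (c (d l l) (d (d k (c k k)) (d (c l l) (c l l))))))))) (A (O (c (c l (c l l)) (c (d (c l l) (c l l)) (d (c k k) (c (d l l) (d (d k (c k k)) (d l l))))))) (O (c (c l l) (c (d (c l l) (c l l)) (d (c k k) (c (d l l) (d (d k (c k k)) (c l (d l l)))))))))) s)) s) (A (B (A (B (A (O (c (c l (c l l)) (c (d (c l l) (c l l)) (d (c k k) (c (d l l) (d (d k (d l l)) (d (c l l) l))))))) (O (c (c l l) (c (d (c l l) (c l l)) (d (c k k) (c (d l l) (d (d k (c k k)) (c l (d (c k k) l))))))))) (A (O (c (c l l) (c (d (c l l) (c l l)) (d (c k k) (c (d l l) (d (d k (d (c k k) l)) (d (c l l) l))))))) s)) s) (A (B (A (O (c (c l l) (c (d (c l l) (c l l)) (d (c k k) (c (d l l) (d (d k (d (c k k) l)) (d (c l l) (c l l)))))))) s) (A (O (c (c l l) (c (d (c l l) (c l l)) (d (c k k) (c (d l l) (d (d k (c k k)) (d (c l l) (c l l)))))))) s)) s)) s)) s)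

theorem s10_r1 : Sound P10 32768 16384 0 32768 :=
  chkOut2_sound P10 KK tr10_r1 32768 16384 0 32768 (by decide +kernel)

end Vale.Agent.P154.D4.K1
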